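import Crest.Agent.S0168.Mix

/-!
# Row 125 / S0168: the "far" midpoint inequality in the model spaces

`mix_ineq`: for an array `x₀` supported in a finite ancestor-closed `S₁ ∋ []` and `y` in the model
space with all `S₁`-coordinates zero, `2a‖x₀‖ + b‖y‖ ≤ ‖x₀ + y‖ + ‖x₀ - y‖` whenever
`a, b ≥ 0`, `a² + b² = 1`.  (Take tests `f`, `g` almost norming `x₀`, `y`, mix them with
`exists_mix`, and note that `evalM hp - evalM hm - b • evalM g` composed with the projection
killing the `S₁`-coordinates vanishes on all coordinate elements, hence everywhere.)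

`far_model`: for every `x` in the model space and `η > 0` there is a finite set `S₁` of vertices
such that `√(4‖x‖² + ‖y‖²) - η ≤ ‖x + y‖ + ‖x - y‖` for every `y` whose `S₁`-coordinates vanish.
-/

set_option autoImplicit false

namespace Crest.Agent.S0168

open Crest.AnalysisR Crest.AnalysisR.TreePotential

variable {m : PotentialModel}

/-- A continuous functional vanishing on the coordinate elements off `S₁` vanishes on every
element all of whose `S₁`-coordinates vanish. -/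
theorem far_aux_vanish (S₁ : Finset (List ℕ)) (L : modelSpace m →L[ℝ] ℝ)
    (hL : ∀ u, u ∉ S₁ → L (coordE m u) = 0)
    (y : modelSpace m) (hy : ∀ s ∈ S₁, coordFn m s y = 0) : L y = 0 := by
  classical
  have h0 : L - ∑ s ∈ S₁, L (coordE m s) • coordFn m s = 0 := by
    apply clm_ext_coordE
    intro u
    simp only [sub_apply, sum_apply, smul_apply, zero_apply, smul_eq_mul]
    by_cases hu : u ∈ S₁
    · rw [Finset.sum_eq_single u]
      · rw [coordFn_coordE, if_pos rfl]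
        by_cases h : u ≠ [] ∨ m ≠ PotentialModel.rootlessSibling
        · rw [if_pos h, mul_one, sub_self]
        · rw [not_or, not_not, not_not] at h
          obtain ⟨rfl, rfl⟩ := h
          rw [coordE_nil_rootless, map_zero, zero_mul, sub_zero]
      · intro s _ hsu
        rw [coordFn_coordE, if_neg (Ne.symm hsu), mul_zero]
      · intro h
        exact absurd hu h
    · rw [Finset.sum_eq_zero, sub_zero, hL u hu]
      intro s hs
      have hus : u ≠ s := fun h => hu (h ▸ hs)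
      rw [coordFn_coordE, if_neg hus, mul_zero]
  have h := congrArg (fun L : modelSpace m →L[ℝ] ℝ => L y) h0
  simp only [sub_apply, sum_apply, smul_apply, zero_apply, smul_eq_mul] at h
  rw [Finset.sum_eq_zero (fun s hs => by rw [hy s hs, mul_zero]), sub_zero] at h
  exact h

/-- Two tests whose difference is `b • g` off `S₁` differ by `b • g` on every element all of
whose `S₁`-coordinates vanish. -/
theorem far_aux_eval_diff (S₁ : Finset (List ℕ)) (Hp Hm g : PotentialTest m) (b : ℝ)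
    (hoff : ∀ s, s ∉ S₁ → Hp.1 s - Hm.1 s = b * g.1 s)
    (y : modelSpace m) (hy : ∀ s ∈ S₁, coordFn m s y = 0) :
    evalM m Hp y - evalM m Hm y = b * evalM m g y := by
  have h := far_aux_vanish S₁ (evalM m Hp - evalM m Hm - b • evalM m g) (fun u hu => by
    simp only [sub_apply, smul_apply, evalM_coordE, smul_eq_mul]
    linarith [hoff u hu]) y hy
  simp only [sub_apply, smul_apply, smul_eq_mul] at h
  linarith

/-- A test equal to `a • f` on `S₁` takes the value `a * f` on every array supported in `S₁`. -/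
theorem far_aux_eval_arr (S₁ : Finset (List ℕ)) (c : List ℕ →₀ ℝ) (hsupp : c.support ⊆ S₁)
    (H f : PotentialTest m) (a : ℝ) (hon : ∀ s ∈ S₁, H.1 s = a * f.1 s) :
    evalM m H (arr m c) = a * evalM m f (arr m c) := by
  rw [evalM_arr, evalM_arr, Finsupp.sum, Finsupp.sum, Finset.mul_sum]
  apply Finset.sum_congr rfl
  intro s hs
  rw [hon s (hsupp hs)]
  ring

theorem mix_ineq (c : List ℕ →₀ ℝ) (S₁ : Finset (List ℕ)) (hroot : [] ∈ S₁)
    (hclosed : ∀ s ∈ S₁, ∀ u : List ℕ, u <:+ s → u ∈ S₁) (hsupp : c.support ⊆ S₁)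
    (y : modelSpace m) (hy : ∀ s ∈ S₁, coordFn m s y = 0)
    (a b : ℝ) (ha : 0 ≤ a) (hb : 0 ≤ b) (hab : a ^ 2 + b ^ 2 = 1) :
    2 * a * ‖arr m c‖ + b * ‖y‖ ≤ ‖arr m c + y‖ + ‖arr m c - y‖ := by
  have hale : a ≤ 1 := by nlinarith
  have hble : b ≤ 1 := by nlinarith
  apply le_of_forall_pos_le_add
  intro ε hε
  obtain ⟨f, hf⟩ := exists_evalM_gt (arr m c) (ε / 3) (by positivity)
  obtain ⟨g, hg⟩ := exists_evalM_gt y (ε / 3) (by positivity)
  obtain ⟨hp, hm, hpT, hmT, hon, hoff⟩ :=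
    exists_mix m f.1 g.1 f.2 g.2 S₁ hroot hclosed a b ha hb hab
  have h1 : evalM m ⟨hp, hpT⟩ (arr m c) = a * evalM m f (arr m c) :=
    far_aux_eval_arr S₁ c hsupp ⟨hp, hpT⟩ f a (fun s hs => (hon s hs).1)
  have h2 : evalM m ⟨hm, hmT⟩ (arr m c) = a * evalM m f (arr m c) :=
    far_aux_eval_arr S₁ c hsupp ⟨hm, hmT⟩ f a (fun s hs => (hon s hs).2)
  have h3 : evalM m ⟨hp, hpT⟩ y - evalM m ⟨hm, hmT⟩ y = b * evalM m g y :=
    far_aux_eval_diff S₁ ⟨hp, hpT⟩ ⟨hm, hmT⟩ g b hoff y hy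
  have h4 : evalM m ⟨hp, hpT⟩ (arr m c + y) ≤ ‖arr m c + y‖ := evalM_le_norm _ _
  have h5 : evalM m ⟨hm, hmT⟩ (arr m c - y) ≤ ‖arr m c - y‖ := evalM_le_norm _ _
  rw [map_add] at h4
  rw [map_sub] at h5
  have h6 : a * (‖arr m c‖ - ε / 3) ≤ a * evalM m f (arr m c) :=
    mul_le_mul_of_nonneg_left hf.le ha
  have h7 : b * (‖y‖ - ε / 3) ≤ b * evalM m g y :=
    mul_le_mul_of_nonneg_left hg.le hb
  have h8 : a * ε ≤ 1 * ε := mul_le_mul_of_nonneg_right hale hε.le
  have h9 : b * ε ≤ 1 * ε := mul_le_mul_of_nonneg_right hble hε.le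
  linarith

/-- `(s, t) ↦ √(4 s² + t²)` is `2`-Lipschitz in `s`. -/
theorem far_aux_sqrt_le (s s' t d : ℝ) (hs : 0 ≤ s) (_hs' : 0 ≤ s') (hd : |s - s'| ≤ d) :
    Real.sqrt (4 * s ^ 2 + t ^ 2) ≤ Real.sqrt (4 * s' ^ 2 + t ^ 2) + 2 * d := by
  have hd0 : 0 ≤ d := (abs_nonneg _).trans hd
  have hR0 : 0 ≤ Real.sqrt (4 * s' ^ 2 + t ^ 2) := Real.sqrt_nonneg _
  have hRsq : Real.sqrt (4 * s' ^ 2 + t ^ 2) ^ 2 = 4 * s' ^ 2 + t ^ 2 :=
    Real.sq_sqrt (by positivity)
  have hR2 : 2 * s' ≤ Real.sqrt (4 * s' ^ 2 + t ^ 2) := by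
    apply Real.le_sqrt_of_sq_le
    nlinarith [sq_nonneg t]
  have hss : s ≤ s' + d := by
    have := abs_le.mp hd
    linarith
  rw [Real.sqrt_le_iff]
  refine ⟨by positivity, ?_⟩
  have hsq : s ^ 2 ≤ (s' + d) ^ 2 := pow_le_pow_left₀ hs hss 2
  have hmul : 2 * s' * d ≤ Real.sqrt (4 * s' ^ 2 + t ^ 2) * d :=
    mul_le_mul_of_nonneg_right hR2 hd0
  nlinarith

theorem far_model (x : modelSpace m) (η : ℝ) (hη : 0 < η) :
    ∃ S₁ : Finset (List ℕ), ∀ y : modelSpace m, (∀ s ∈ S₁, coordFn m s y = 0) →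
      Real.sqrt (4 * ‖x‖ ^ 2 + ‖y‖ ^ 2) - η ≤ ‖x + y‖ + ‖x - y‖ := by
  classical
  obtain ⟨c, hc⟩ := exists_arr_near x (η / 4) (by positivity)
  have hroot : ([] : List ℕ) ∈ (insert [] c.support).biUnion (fun s => s.tails.toFinset) := by
    rw [Finset.mem_biUnion]
    exact ⟨[], Finset.mem_insert_self _ _, by simp⟩
  have hclosed : ∀ s ∈ (insert [] c.support).biUnion (fun s => s.tails.toFinset),
      ∀ u : List ℕ, u <:+ s →
        u ∈ (insert [] c.support).biUnion (fun s => s.tails.toFinset) := by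
    intro s hs u hu
    rw [Finset.mem_biUnion] at hs ⊢
    obtain ⟨t, ht, hst⟩ := hs
    rw [List.mem_toFinset, List.mem_tails] at hst
    exact ⟨t, ht, by rw [List.mem_toFinset, List.mem_tails]; exact hu.trans hst⟩
  have hsupp : c.support ⊆ (insert [] c.support).biUnion (fun s => s.tails.toFinset) := by
    intro s hs
    rw [Finset.mem_biUnion]
    exact ⟨s, Finset.mem_insert_of_mem hs, by simp⟩
  refine ⟨(insert [] c.support).biUnion (fun s => s.tails.toFinset), fun y hy => ?_⟩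
  -- the key inequality for the array
  have key : Real.sqrt (4 * ‖arr m c‖ ^ 2 + ‖y‖ ^ 2) ≤ ‖arr m c + y‖ + ‖arr m c - y‖ := by
    have hRsq : Real.sqrt (4 * ‖arr m c‖ ^ 2 + ‖y‖ ^ 2) ^ 2 = 4 * ‖arr m c‖ ^ 2 + ‖y‖ ^ 2 :=
      Real.sq_sqrt (by positivity)
    have hR0 : 0 ≤ Real.sqrt (4 * ‖arr m c‖ ^ 2 + ‖y‖ ^ 2) := Real.sqrt_nonneg _
    generalize Real.sqrt (4 * ‖arr m c‖ ^ 2 + ‖y‖ ^ 2) = R at hRsq hR0
    rcases hR0.eq_or_lt with h0 | hpos
    · rw [← h0]
      positivity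
    · have hmix := mix_ineq c _ hroot hclosed hsupp y hy (2 * ‖arr m c‖ / R) (‖y‖ / R)
        (by positivity) (by positivity) (by
          field_simp
          linarith)
      have e : 2 * (2 * ‖arr m c‖ / R) * ‖arr m c‖ + ‖y‖ / R * ‖y‖ = R := by
        field_simp
        linarith
      linarith
  have hxx : |‖x‖ - ‖arr m c‖| ≤ η / 4 := (abs_norm_sub_norm_le x (arr m c)).trans hc.le
  have h1 := far_aux_sqrt_le ‖x‖ ‖arr m c‖ ‖y‖ (η / 4) (norm_nonneg _) (norm_nonneg _) hxx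
  have h2 : ‖arr m c + y‖ ≤ ‖x + y‖ + η / 4 := by
    have e : arr m c + y = (x + y) - (x - arr m c) := by abel
    rw [e]
    exact (norm_sub_le _ _).trans (by linarith)
  have h3 : ‖arr m c - y‖ ≤ ‖x - y‖ + η / 4 := by
    have e : arr m c - y = (x - y) - (x - arr m c) := by abel
    rw [e]
    exact (norm_sub_le _ _).trans (by linarith)
  linarith

/-- The common kernel of finitely many continuous functionals is a closed subspace of finite
codimension. -/
theorem far_aux_cof {V : Type*} [NormedAddCommGroup V] [NormedSpace ℝ V] {ι : Type*} [Finite ι]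
    (φ : ι → V →L[ℝ] ℝ) :
    ∃ F : Submodule ℝ V, IsClosed (F : Set V) ∧ FiniteDimensional ℝ (V ⧸ F) ∧
      ∀ y : V, y ∈ F ↔ ∀ i, φ i y = 0 := by
  classical
  cases nonempty_fintype ι
  refine ⟨LinearMap.ker (ContinuousLinearMap.pi φ).toLinearMap,
    (ContinuousLinearMap.pi φ).isClosed_ker, ?_, ?_⟩
  · exact Module.Finite.equiv
      (LinearMap.quotKerEquivRange (ContinuousLinearMap.pi φ).toLinearMap).symm
  · intro y
    rw [LinearMap.mem_ker]
    constructor
    · intro h i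
      exact congrFun h i
    · intro h
      funext i
      exact h i

/-- The "far" inequality in the form required by `S0166.midGE_of_far`. -/
theorem far_model_cof (x : modelSpace m) (η : ℝ) (hη : 0 < η) :
    ∃ F : Submodule ℝ (modelSpace m), IsClosed (F : Set (modelSpace m)) ∧
      FiniteDimensional ℝ (modelSpace m ⧸ F) ∧
        ∀ y ∈ F, Real.sqrt (4 * ‖x‖ ^ 2 + ‖y‖ ^ 2) - η ≤ ‖x + y‖ + ‖x - y‖ := by
  obtain ⟨S₁, hS⟩ := far_model x η hη
  obtain ⟨F, hc, hfd, hF⟩ := far_aux_cof (fun s : S₁ => coordFn m s.1)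
  exact ⟨F, hc, hfd, fun y hy => hS y (fun s hs => (hF y).1 hy ⟨s, hs⟩)⟩

end Crest.Agent.S0168
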