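import Crest.Agent.S0166.Tree
import Crest.Prelude.Def_TreePotentials

/-!
# Row 125 / S0168: API for the tree-potential model spaces

Ambient space `Amb m = lp (fun _ : PotentialTest m => ℝ) ⊤`, evaluation functionals at tests,
delta tests, coordinate elements / functionals of `modelSpace m`, branch sums and their norms,
finitely supported arrays and their density.
-/

set_option autoImplicit false

namespace Crest.Agent.S0168

open Crest.AnalysisR Crest.AnalysisR.TreePotential

/-- The ambient space of bounded real functions on the test set. -/
abbrev Amb (m : PotentialModel) : Type := lp (fun _ : PotentialTest m => ℝ) ⊤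

variable {m : PotentialModel}

instance instCompleteSpaceModelSpace (m : PotentialModel) : CompleteSpace (modelSpace m) :=
  (Submodule.isClosed_topologicalClosure _).completeSpace_coe

/-- Evaluation at a test, as a continuous linear functional on the ambient space. -/
noncomputable def evalT (m : PotentialModel) (f : PotentialTest m) : Amb m →L[ℝ] ℝ :=
  LinearMap.mkContinuous
    { toFun := fun ξ => ξ f
      map_add' := fun _ _ => rfl
      map_smul' := fun _ _ => rfl } 1 (fun ξ => by
        rw [one_mul]; exact lp.norm_apply_le_norm (by simp) ξ f)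

theorem evalT_apply (f : PotentialTest m) (ξ : Amb m) : evalT m f ξ = ξ f := rfl

theorem abs_evalT_le (f : PotentialTest m) (ξ : Amb m) : |evalT m f ξ| ≤ ‖ξ‖ := by
  have h := lp.norm_apply_le_norm (p := ⊤) (by simp) ξ f
  rwa [Real.norm_eq_abs] at h

theorem evalT_coordVector (f : PotentialTest m) (s : List ℕ) :
    evalT m f (coordVector m s) = f.1 s := rfl

theorem norm_le_of_evalT_le (ξ : Amb m) (C : ℝ) (hC : 0 ≤ C)
    (h : ∀ f : PotentialTest m, |evalT m f ξ| ≤ C) : ‖ξ‖ ≤ C :=
  lp.norm_le_of_forall_le hC (fun f => by rw [Real.norm_eq_abs]; exact h f)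

/-- A continuous functional on the ambient space that vanishes on all coordinate vectors
vanishes on the model space. -/
theorem eq_zero_of_forall_coordVector (L : Amb m →L[ℝ] ℝ)
    (h : ∀ s, L (coordVector m s) = 0) {ξ : Amb m} (hξ : ξ ∈ modelSpace m) : L ξ = 0 := by
  have hle : modelSpace m ≤ (LinearMap.ker L.toLinearMap) := by
    apply Submodule.topologicalClosure_minimal
    · rw [Submodule.span_le]
      rintro _ ⟨s, rfl⟩
      exact h s
    · exact L.isClosed_ker
  exact hle hξ

/-- The negative of a test is a test. -/
theorem tests_pathPotential_neg (f : List ℕ → ℝ) (s : List ℕ) :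
    pathPotential (fun u => - f u) s = - pathPotential f s := by
  induction s with
  | nil => rfl
  | cons a v ih => simp only [pathPotential, ih]; ring

theorem isTest_neg {f : List ℕ → ℝ} (hf : IsTest m f) : IsTest m (fun s => - f s) := by
  refine ⟨fun s => by rw [tests_pathPotential_neg, abs_neg]; exact hf.1 s, ?_⟩
  have h2 := hf.2
  cases m with
  | rootlessSibling =>
    refine ⟨by simp [h2.1], fun r A => ?_⟩
    simpa using h2.2 r A
  | rootedSibling =>
    intro r A
    simpa using h2 r A
  | antichain =>
    refine ⟨?_, fun A hA => ?_⟩
    · have : Function.support (fun s => - f s) = Function.support f := by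
        ext s; simp
      rw [this]; exact h2.1
    · simpa using h2.2 A hA
  | global =>
    intro A
    simpa using h2 A

/-- The negative test. -/
def negT (f : PotentialTest m) : PotentialTest m := ⟨fun s => - f.1 s, isTest_neg f.2⟩

theorem evalT_negT (f : PotentialTest m) {ξ : Amb m} (hξ : ξ ∈ modelSpace m) :
    evalT m (negT f) ξ = - evalT m f ξ := by
  have := eq_zero_of_forall_coordVector (evalT m (negT f) + evalT m f)
    (fun s => by
      show - f.1 s + f.1 s = 0
      ring) hξ
  simp only [add_apply] at this
  linarith

/-- The indicator of a vertex. -/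
def delta (s : List ℕ) : List ℕ → ℝ := fun u => if u = s then 1 else 0

/-- The potential of the indicator of `s`: `1` on `s` and its descendants, `0` elsewhere. -/
theorem pathPotential_delta (s v : List ℕ) :
    pathPotential (delta s) v = if s <:+ v then 1 else 0 := by
  induction v with
  | nil =>
    simp only [pathPotential, delta, List.suffix_nil]
    by_cases h : s = []
    · simp [h]
    · have h' : ¬ ([] : List ℕ) = s := fun e => h e.symm
      simp [h, h']
  | cons a v ih =>
    simp only [pathPotential, ih, delta, List.suffix_cons_iff]
    by_cases h1 : s <:+ v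
    · have h2 : ¬ (a :: v = s) := by
        intro e
        have := h1.length_le
        rw [← e] at this
        simp at this
      simp [h1, h2]
    · by_cases h2 : a :: v = s
      · subst h2
        have h3 : ¬ (a :: v <:+ v) := fun h => by
          have := h.length_le
          simp at this
        simp [h3]
      · have h2' : ¬ s = a :: v := fun e => h2 e.symm
        simp [h1, h2, h2']

theorem tests_delta_sq_sum_le (s : List ℕ) (A : Finset (List ℕ)) :
    ∑ u ∈ A, delta s u ^ 2 ≤ 1 := by
  classical
  have : ∀ u ∈ A, delta s u ^ 2 = if u = s then 1 else 0 := by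
    intro u _
    by_cases h : u = s <;> simp [delta, h]
  rw [Finset.sum_congr rfl this, Finset.sum_ite_eq']
  split_ifs <;> norm_num

theorem tests_delta_sq_sum_children_le (s r : List ℕ) (A : Finset ℕ) :
    ∑ n ∈ A, delta s (n :: r) ^ 2 ≤ 1 := by
  classical
  have h := tests_delta_sq_sum_le s (A.image (fun n => n :: r))
  rwa [Finset.sum_image (fun a _ b _ hab => by simpa using hab)] at h

/-- The indicator of a vertex is a test (except at the root of the rootless model). -/
theorem isTest_delta (m : PotentialModel) (s : List ℕ)
    (hs : s ≠ [] ∨ m ≠ PotentialModel.rootlessSibling) : IsTest m (delta s) := by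
  refine ⟨fun v => ?_, ?_⟩
  · rw [pathPotential_delta]
    split_ifs <;> norm_num
  · cases m with
    | rootlessSibling =>
      have hs' : s ≠ [] := by
        rcases hs with h | h
        · exact h
        · exact (h rfl).elim
      refine ⟨?_, fun r A => tests_delta_sq_sum_children_le s r A⟩
      have : ¬ ([] : List ℕ) = s := fun e => hs' e.symm
      simp [delta, this]
    | rootedSibling =>
      exact fun r A => tests_delta_sq_sum_children_le s r A
    | antichain =>
      refine ⟨?_, fun A _ => tests_delta_sq_sum_le s A⟩
      apply Set.Finite.subset (Set.finite_singleton s)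
      intro u hu
      by_contra hne
      simp only [Set.mem_singleton_iff] at hne
      simp [delta, hne] at hu
    | global =>
      exact fun A => tests_delta_sq_sum_le s A

/-- The norm of an element of the model space is the supremum of its values on tests (no
absolute value needed, the test set being symmetric). -/
theorem exists_evalT_gt {ξ : Amb m} (hξ : ξ ∈ modelSpace m) (ε : ℝ) (hε : 0 < ε) :
    ∃ f : PotentialTest m, ‖ξ‖ - ε < evalT m f ξ := by
  by_contra hcon
  push Not at hcon
  have hle : ‖ξ‖ ≤ ‖ξ‖ - ε := by
    apply norm_le_of_evalT_le ξ (‖ξ‖ - ε)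
    · have f : PotentialTest m := ⟨delta [0], isTest_delta m [0] (Or.inl (by simp))⟩
      have h1 := hcon f
      have h2 := hcon (negT f)
      rw [evalT_negT f hξ] at h2
      linarith
    · intro f
      rw [abs_le]
      refine ⟨?_, hcon f⟩
      have h2 := hcon (negT f)
      rw [evalT_negT f hξ] at h2
      linarith
  linarith

/-- The coordinate element of the model space at the vertex `s`. -/
noncomputable def coordE (m : PotentialModel) (s : List ℕ) : modelSpace m :=
  ⟨coordVector m s, Submodule.le_topologicalClosure _ (Submodule.subset_span ⟨s, rfl⟩)⟩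

theorem coe_coordE (s : List ℕ) : ((coordE m s : modelSpace m) : Amb m) = coordVector m s := rfl

/-- The root coordinate of the rootless model is zero. -/
theorem coordE_nil_rootless : coordE PotentialModel.rootlessSibling [] = 0 := by
  apply Subtype.ext
  ext f
  exact f.2.2.1

/-- Evaluation at a test restricted to the model space. -/
noncomputable def evalM (m : PotentialModel) (f : PotentialTest m) : modelSpace m →L[ℝ] ℝ :=
  (evalT m f).comp (modelSpace m).subtypeL

theorem evalM_apply (f : PotentialTest m) (ξ : modelSpace m) :
    evalM m f ξ = evalT m f (ξ : Amb m) := rfl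

theorem evalM_coordE (f : PotentialTest m) (s : List ℕ) : evalM m f (coordE m s) = f.1 s := rfl

theorem evalM_le_norm (f : PotentialTest m) (ξ : modelSpace m) : evalM m f ξ ≤ ‖ξ‖ :=
  (le_abs_self _).trans (abs_evalT_le f (ξ : Amb m))

theorem exists_evalM_gt (ξ : modelSpace m) (ε : ℝ) (hε : 0 < ε) :
    ∃ f : PotentialTest m, ‖ξ‖ - ε < evalM m f ξ :=
  exists_evalT_gt ξ.2 ε hε

open Classical in
/-- The coordinate functional of the model space at the vertex `s`: evaluation at the delta
test (the zero functional at the root of the rootless model, where the coordinate is zero). -/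
noncomputable def coordFn (m : PotentialModel) (s : List ℕ) : modelSpace m →L[ℝ] ℝ :=
  if hs : s ≠ [] ∨ m ≠ PotentialModel.rootlessSibling then
    evalM m ⟨delta s, isTest_delta m s hs⟩
  else 0

open Classical in
theorem coordFn_coordE (s u : List ℕ) :
    coordFn m s (coordE m u) = if u = s then
      (if s ≠ [] ∨ m ≠ PotentialModel.rootlessSibling then 1 else 0) else 0 := by
  unfold coordFn
  by_cases hs : s ≠ [] ∨ m ≠ PotentialModel.rootlessSibling
  · rw [dif_pos hs, if_pos hs]
    show delta s u = _
    simp [delta]
  · rw [dif_neg hs, if_neg hs]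
    simp

/-- The span of the coordinate elements is dense in the model space. -/
theorem dense_span_coordE (m : PotentialModel) :
    Dense (Submodule.span ℝ (Set.range (coordE m)) : Set (modelSpace m)) := by
  intro x
  rw [closure_subtype]
  have hx : (x : Amb m) ∈ closure (Submodule.span ℝ (Set.range (coordVector m)) : Set (Amb m)) := by
    have h : (x : Amb m) ∈ (Submodule.span ℝ (Set.range (coordVector m))).topologicalClosure :=
      x.2
    rwa [← SetLike.mem_coe, Submodule.topologicalClosure_coe] at h
  refine closure_mono ?_ hx
  have hle : Submodule.span ℝ (Set.range (coordVector m)) ≤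
      Submodule.map (modelSpace m).subtype (Submodule.span ℝ (Set.range (coordE m))) := by
    rw [Submodule.span_le]
    rintro _ ⟨s, rfl⟩
    exact ⟨coordE m s, Submodule.subset_span ⟨s, rfl⟩, rfl⟩
  intro z hz
  obtain ⟨w, hw, rfl⟩ := hle hz
  exact ⟨w, hw, rfl⟩

/-- Every element of the model space equals, for evaluation purposes, its "array": two
continuous functionals on the model space agreeing on all coordinate elements are equal. -/
theorem clm_ext_coordE {L₁ L₂ : modelSpace m →L[ℝ] ℝ}
    (h : ∀ s, L₁ (coordE m s) = L₂ (coordE m s)) : L₁ = L₂ := by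
  apply ContinuousLinearMap.ext_on (dense_span_coordE m)
  rintro _ ⟨s, rfl⟩
  exact h s

/-- Branch sums: the sum of the coordinate elements over the vertex and its ancestors. -/
noncomputable def branchSum (m : PotentialModel) : List ℕ → modelSpace m
  | [] => coordE m []
  | a :: v => branchSum m v + coordE m (a :: v)

theorem evalM_branchSum (f : PotentialTest m) (v : List ℕ) :
    evalM m f (branchSum m v) = pathPotential f.1 v := by
  induction v with
  | nil => rfl
  | cons a v ih =>
    simp only [branchSum, map_add, ih, pathPotential]
    rfl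

theorem norm_branchSum_le (v : List ℕ) : ‖branchSum m v‖ ≤ 1 := by
  refine norm_le_of_evalT_le (branchSum m v : Amb m) 1 zero_le_one (fun f => ?_)
  have := evalM_branchSum f v
  rw [evalM_apply] at this
  rw [this]
  exact f.2.1 v

theorem norm_branchSum_ge (v : List ℕ) (hv : v ≠ []) : 1 ≤ ‖branchSum m v‖ := by
  have h := evalM_le_norm (⟨delta v, isTest_delta m v (Or.inl hv)⟩ : PotentialTest m)
    (branchSum m v)
  rw [evalM_branchSum] at h
  simpa [pathPotential_delta] using h

theorem norm_coordE_ge (s : List ℕ) (hs : s ≠ []) : 1 ≤ ‖coordE m s‖ := by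
  have h := evalM_le_norm (⟨delta s, isTest_delta m s (Or.inl hs)⟩ : PotentialTest m)
    (coordE m s)
  rw [evalM_coordE] at h
  simpa [delta] using h

/-- Square sums of a test over siblings are at most one, in every model. -/
theorem tests_sq_sum_children_le (f : PotentialTest m) (v : List ℕ) (B : Finset ℕ) :
    ∑ n ∈ B, f.1 (n :: v) ^ 2 ≤ 1 := by
  classical
  have h2 := f.2.2
  cases m with
  | rootlessSibling => exact h2.2 v B
  | rootedSibling => exact h2 v B
  | antichain =>
    have h := h2.2 (B.image (fun n => n :: v)) (by
      intro a ha b hb hab hsuf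
      simp only [Finset.mem_image] at ha hb
      obtain ⟨n, _, rfl⟩ := ha
      obtain ⟨n', _, rfl⟩ := hb
      apply hab
      exact hsuf.eq_of_length (by simp))
    rwa [Finset.sum_image (fun a _ b _ hab => by simpa using hab)] at h
  | global =>
    have h := h2 (B.image (fun n => n :: v))
    rwa [Finset.sum_image (fun a _ b _ hab => by simpa using hab)] at h

/-- Square estimate for siblings. -/
theorem norm_sum_children_le (v : List ℕ) (B : Finset ℕ) :
    ‖∑ n ∈ B, coordE m (n :: v)‖ ≤ Real.sqrt B.card := by
  have key : ∀ f : PotentialTest m,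
      |evalT m f ((∑ n ∈ B, coordE m (n :: v) : modelSpace m) : Amb m)| ≤ Real.sqrt B.card := by
    intro f
    have h1 : evalM m f (∑ n ∈ B, coordE m (n :: v)) = ∑ n ∈ B, f.1 (n :: v) := by
      rw [map_sum]
      rfl
    rw [evalM_apply] at h1
    rw [h1]
    apply Real.abs_le_sqrt
    calc (∑ n ∈ B, f.1 (n :: v)) ^ 2 ≤ B.card * ∑ n ∈ B, f.1 (n :: v) ^ 2 :=
          sq_sum_le_card_mul_sum_sq
      _ ≤ B.card * 1 := by
          apply mul_le_mul_of_nonneg_left (tests_sq_sum_children_le f v B) (Nat.cast_nonneg _)
      _ = B.card := mul_one _
  exact norm_le_of_evalT_le _ _ (Real.sqrt_nonneg _) key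

/-- Finitely supported arrays as elements of the model space. -/
noncomputable def arr (m : PotentialModel) (c : List ℕ →₀ ℝ) : modelSpace m :=
  c.sum fun s a => a • coordE m s

theorem evalM_arr (f : PotentialTest m) (c : List ℕ →₀ ℝ) :
    evalM m f (arr m c) = c.sum fun s a => a * f.1 s := by
  unfold arr
  rw [map_finsuppSum]
  apply Finsupp.sum_congr
  intro s _
  rw [map_smul, evalM_coordE]
  rfl

/-- Arrays are dense in the model space. -/
theorem exists_arr_near (ξ : modelSpace m) (ε : ℝ) (hε : 0 < ε) :
    ∃ c : List ℕ →₀ ℝ, ‖ξ - arr m c‖ < ε := by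
  have hx := dense_span_coordE m ξ
  rw [Metric.mem_closure_iff] at hx
  obtain ⟨z, hz, hd⟩ := hx ε hε
  rw [SetLike.mem_coe, Finsupp.mem_span_range_iff_exists_finsupp] at hz
  obtain ⟨c, rfl⟩ := hz
  exact ⟨c, by rwa [dist_eq_norm] at hd⟩

/-- The model space is separable. -/
theorem separable_modelSpace (m : PotentialModel) :
    TopologicalSpace.SeparableSpace (modelSpace m) := by
  have h : TopologicalSpace.IsSeparable ((modelSpace m : Submodule ℝ (Amb m)) : Set (Amb m)) := by
    show TopologicalSpace.IsSeparable
      ((Submodule.span ℝ (Set.range (coordVector m))).topologicalClosure : Set (Amb m))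
    rw [Submodule.topologicalClosure_coe]
    exact ((Set.countable_range (coordVector m)).isSeparable.span).closure
  exact h.separableSpace

end Crest.Agent.S0168
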