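import Crest.Agent.S0168.Tests

/-!
# Row 125 / S0168: no equivalent AUC norm on the model spaces (tree lemma along branch sums)
-/

set_option autoImplicit false

namespace Crest.Agent.S0168

open Crest.AnalysisR Crest.AnalysisR.TreePotential Crest.Agent.S0166

theorem model_no_auc (m : PotentialModel) (N : modelSpace m → ℝ) (hN : EquivNorm N) :
    ¬ AUCNorm N := by
  refine no_auc_of_tree (fun z _ => ∃ v : List ℕ, v ≠ [] ∧ z = branchSum m v) 1 1 1
    one_pos one_pos ?_ ?_ ?_ N hN
  · intro _
    exact ⟨branchSum m [0], [0], by simp, rfl⟩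
  · rintro z j ⟨v, hv, rfl⟩
    exact ⟨norm_branchSum_ge v hv, norm_branchSum_le v⟩
  · rintro z j ⟨v, hv, rfl⟩ F hF hfd ε hε
    obtain ⟨n₀, hn₀⟩ := exists_near_of_sqrt_bound (fun n => coordE m (n :: v)) 1
      (fun B => by simpa using norm_sum_children_le v B) F hF hfd ε hε
    obtain ⟨y, hyF, hy⟩ := hn₀ n₀ le_rfl
    refine ⟨branchSum m (n₀ :: v), y, ⟨n₀ :: v, by simp, rfl⟩, hyF, ?_, ?_⟩
    · have : branchSum m (n₀ :: v) - branchSum m v = coordE m (n₀ :: v) := by
        simp [branchSum]
      rw [this]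
      exact norm_coordE_ge _ (by simp)
    · have : branchSum m (n₀ :: v) - branchSum m v = coordE m (n₀ :: v) := by
        simp [branchSum]
      rw [this]
      exact hy

end Crest.Agent.S0168
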