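import Mathlib
import Crest.Prelude.Def_TreePotentials

/-!
# Row 125 / S0168 — the test-splitting lemma (helper62)

For every one of the four tree-potential models: given two tests `f`, `g`, a finite ancestor-closed
set `S` of vertices and `c, s ≥ 0` with `c² + s² = 1`, there are two tests `hp`, `hm` which both
equal `c • f` on `S` and whose difference is `s • g` off `S`.

Construction (piecewise-linear splitting of the increments of the potential of `g` below the
anchor, the deepest ancestor in `S`).
-/

set_option autoImplicit false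

namespace Crest.Agent.S0168

open Crest.AnalysisR.TreePotential

/-- coefficients of a potential -/
def split_coef (P : List ℕ → ℝ) : List ℕ → ℝ
  | [] => P []
  | a :: v => P (a :: v) - P v

theorem split_pathPotential_coef (P : List ℕ → ℝ) : pathPotential (split_coef P) = P := by
  funext u
  induction u with
  | nil => rfl
  | cons a v ih => simp [pathPotential, split_coef, ih]

/-- value of `F` at the anchor (deepest ancestor-or-self in `S`), `0` if there is none -/
def split_anch (S : Finset (List ℕ)) (F : List ℕ → ℝ) : List ℕ → ℝ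
  | [] => if [] ∈ S then F [] else 0
  | a :: v => if a :: v ∈ S then F (a :: v) else split_anch S F v

theorem split_anch_mem (S : Finset (List ℕ)) (F : List ℕ → ℝ) (u : List ℕ) (hu : u ∈ S) :
    split_anch S F u = F u := by
  cases u with
  | nil => simp [split_anch, hu]
  | cons a v => simp [split_anch, hu]

theorem split_anch_cons_not_mem (S : Finset (List ℕ)) (F : List ℕ → ℝ) (a : ℕ) (v : List ℕ)
    (hu : a :: v ∉ S) : split_anch S F (a :: v) = split_anch S F v := by
  simp [split_anch, hu]

theorem split_anch_nil_not_mem (S : Finset (List ℕ)) (F : List ℕ → ℝ) (hu : [] ∉ S) :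
    split_anch S F [] = 0 := by
  simp [split_anch, hu]

theorem split_anch_abs_le (S : Finset (List ℕ)) (F : List ℕ → ℝ) (B : ℝ) (hB : 0 ≤ B)
    (hF : ∀ v, |F v| ≤ B) (u : List ℕ) : |split_anch S F u| ≤ B := by
  induction u with
  | nil =>
    by_cases h : [] ∈ S
    · rw [split_anch_mem S F [] h]; exact hF []
    · rw [split_anch_nil_not_mem S F h]; simpa using hB
  | cons a v ih =>
    by_cases h : a :: v ∈ S
    · rw [split_anch_mem S F _ h]; exact hF _
    · rw [split_anch_cons_not_mem S F a v h]; exact ih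

/-- the "plus" share of an increment `x` at anchor potential `p` -/
noncomputable def split_kp (p x : ℝ) : ℝ := if 0 ≤ x then x * (1 - p) / 2 else x * (1 + p) / 2

/-- the "minus" share of an increment `x` at anchor potential `p` -/
noncomputable def split_km (p x : ℝ) : ℝ := if 0 ≤ x then x * (1 + p) / 2 else x * (1 - p) / 2

theorem split_kp_add_km (p x : ℝ) : split_kp p x + split_km p x = x := by
  unfold split_kp split_km
  split_ifs <;> ring

theorem split_kp_zero (p : ℝ) : split_kp p 0 = 0 := by simp [split_kp]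

theorem split_km_zero (p : ℝ) : split_km p 0 = 0 := by simp [split_km]

theorem split_kp_lip (p : ℝ) (hp : |p| ≤ 1) (x y : ℝ) :
    |split_kp p x - split_kp p y| ≤ |x - y| := by
  obtain ⟨hp1, hp2⟩ := abs_le.1 hp
  unfold split_kp
  rw [abs_le]
  split_ifs with hx hy hy
  · rcases le_total x y with h | h
    · rw [abs_of_nonpos (by linarith)]; constructor <;> nlinarith
    · rw [abs_of_nonneg (by linarith)]; constructor <;> nlinarith
  · simp only [not_le] at hy
    rw [abs_of_nonneg (by linarith)]; constructor <;> nlinarith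
  · simp only [not_le] at hx
    rw [abs_of_nonpos (by linarith)]; constructor <;> nlinarith
  · simp only [not_le] at hx hy
    rcases le_total x y with h | h
    · rw [abs_of_nonpos (by linarith)]; constructor <;> nlinarith
    · rw [abs_of_nonneg (by linarith)]; constructor <;> nlinarith

theorem split_km_lip (p : ℝ) (hp : |p| ≤ 1) (x y : ℝ) :
    |split_km p x - split_km p y| ≤ |x - y| := by
  obtain ⟨hp1, hp2⟩ := abs_le.1 hp
  unfold split_km
  rw [abs_le]
  split_ifs with hx hy hy
  · rcases le_total x y with h | h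
    · rw [abs_of_nonpos (by linarith)]; constructor <;> nlinarith
    · rw [abs_of_nonneg (by linarith)]; constructor <;> nlinarith
  · simp only [not_le] at hy
    rw [abs_of_nonneg (by linarith)]; constructor <;> nlinarith
  · simp only [not_le] at hx
    rw [abs_of_nonpos (by linarith)]; constructor <;> nlinarith
  · simp only [not_le] at hx hy
    rcases le_total x y with h | h
    · rw [abs_of_nonpos (by linarith)]; constructor <;> nlinarith
    · rw [abs_of_nonneg (by linarith)]; constructor <;> nlinarith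

theorem split_kp_abs_le (p : ℝ) (hp : |p| ≤ 1) (x : ℝ) : |split_kp p x| ≤ |x| := by
  have := split_kp_lip p hp x 0
  simpa [split_kp_zero] using this

theorem split_km_abs_le (p : ℝ) (hp : |p| ≤ 1) (x : ℝ) : |split_km p x| ≤ |x| := by
  have := split_km_lip p hp x 0
  simpa [split_km_zero] using this

theorem split_kp_bound (p x s : ℝ) (hp : |p| ≤ 1) (hx : |x| ≤ 2) (hs0 : 0 ≤ s) (hs1 : s ≤ 1) :
    |p + s * split_kp p x| ≤ 1 := by
  obtain ⟨hp1, hp2⟩ := abs_le.1 hp
  obtain ⟨hx1, hx2⟩ := abs_le.1 hx
  unfold split_kp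
  rw [abs_le]
  split_ifs with h
  · have h1 : 0 ≤ x * (1 - p) / 2 := by nlinarith
    have h2 : x * (1 - p) / 2 ≤ 1 - p := by nlinarith
    constructor <;> nlinarith
  · simp only [not_le] at h
    have h1 : x * (1 + p) / 2 ≤ 0 := by nlinarith
    have h2 : -(1 + p) ≤ x * (1 + p) / 2 := by nlinarith
    constructor <;> nlinarith

theorem split_km_bound (p x s : ℝ) (hp : |p| ≤ 1) (hx : |x| ≤ 2) (hs0 : 0 ≤ s) (hs1 : s ≤ 1) :
    |p - s * split_km p x| ≤ 1 := by
  obtain ⟨hp1, hp2⟩ := abs_le.1 hp
  obtain ⟨hx1, hx2⟩ := abs_le.1 hx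
  unfold split_km
  rw [abs_le]
  split_ifs with h
  · have h1 : 0 ≤ x * (1 + p) / 2 := by nlinarith
    have h2 : x * (1 + p) / 2 ≤ 1 + p := by nlinarith
    constructor <;> nlinarith
  · simp only [not_le] at h
    have h1 : x * (1 - p) / 2 ≤ 0 := by nlinarith
    have h2 : -(1 - p) ≤ x * (1 - p) / 2 := by nlinarith
    constructor <;> nlinarith

/-- anchor potential `c * P_f(anchor)` -/
noncomputable def split_A (S : Finset (List ℕ)) (f : List ℕ → ℝ) (c : ℝ) : List ℕ → ℝ :=
  split_anch S (fun v => c * pathPotential f v)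

/-- increment of the potential of `g` below the anchor -/
noncomputable def split_pi (S : Finset (List ℕ)) (g : List ℕ → ℝ) (u : List ℕ) : ℝ :=
  pathPotential g u - split_anch S (pathPotential g) u

/-- potential of the "plus" test -/
noncomputable def split_Pp (S : Finset (List ℕ)) (f g : List ℕ → ℝ) (c s : ℝ) (u : List ℕ) : ℝ :=
  split_A S f c u + s * split_kp (split_A S f c u) (split_pi S g u)

/-- potential of the "minus" test -/
noncomputable def split_Pm (S : Finset (List ℕ)) (f g : List ℕ → ℝ) (c s : ℝ) (u : List ℕ) : ℝ :=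
  split_A S f c u - s * split_km (split_A S f c u) (split_pi S g u)

theorem split_pi_mem (S : Finset (List ℕ)) (g : List ℕ → ℝ) (u : List ℕ) (hu : u ∈ S) :
    split_pi S g u = 0 := by
  simp [split_pi, split_anch_mem S _ u hu]

theorem split_pi_cons (S : Finset (List ℕ)) (g : List ℕ → ℝ) (a : ℕ) (v : List ℕ)
    (hu : a :: v ∉ S) : split_pi S g (a :: v) = split_pi S g v + g (a :: v) := by
  simp only [split_pi, split_anch_cons_not_mem S _ a v hu, pathPotential]
  ring

theorem split_pi_nil (S : Finset (List ℕ)) (g : List ℕ → ℝ) (hu : [] ∉ S) :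
    split_pi S g [] = g [] := by
  simp [split_pi, split_anch_nil_not_mem S _ hu, pathPotential]

theorem split_pi_abs_le (S : Finset (List ℕ)) (g : List ℕ → ℝ)
    (hg : ∀ v, |pathPotential g v| ≤ 1) (u : List ℕ) : |split_pi S g u| ≤ 2 := by
  have h1 := hg u
  have h2 := split_anch_abs_le S (pathPotential g) 1 zero_le_one hg u
  unfold split_pi
  rw [abs_le] at *
  constructor <;> linarith [h1.1, h1.2, h2.1, h2.2]

theorem split_A_abs_le (S : Finset (List ℕ)) (f : List ℕ → ℝ) (c : ℝ) (hc0 : 0 ≤ c) (hc1 : c ≤ 1)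
    (hf : ∀ v, |pathPotential f v| ≤ 1) (u : List ℕ) : |split_A S f c u| ≤ 1 := by
  refine split_anch_abs_le S _ 1 zero_le_one (fun v => ?_) u
  rw [abs_mul, abs_of_nonneg hc0]
  have := hf v
  nlinarith [abs_nonneg (pathPotential f v)]

theorem split_A_mem (S : Finset (List ℕ)) (f : List ℕ → ℝ) (c : ℝ) (u : List ℕ) (hu : u ∈ S) :
    split_A S f c u = c * pathPotential f u := by
  simp [split_A, split_anch_mem S _ u hu]

theorem split_A_cons (S : Finset (List ℕ)) (f : List ℕ → ℝ) (c : ℝ) (a : ℕ) (v : List ℕ)
    (hu : a :: v ∉ S) : split_A S f c (a :: v) = split_A S f c v := by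
  simp [split_A, split_anch_cons_not_mem S _ a v hu]

theorem split_A_nil (S : Finset (List ℕ)) (f : List ℕ → ℝ) (c : ℝ) (hu : [] ∉ S) :
    split_A S f c [] = 0 := by
  simp [split_A, split_anch_nil_not_mem S _ hu]

theorem split_Pp_mem (S : Finset (List ℕ)) (f g : List ℕ → ℝ) (c s : ℝ) (u : List ℕ) (hu : u ∈ S) :
    split_Pp S f g c s u = c * pathPotential f u := by
  simp [split_Pp, split_A_mem S f c u hu, split_pi_mem S g u hu, split_kp_zero]

theorem split_Pm_mem (S : Finset (List ℕ)) (f g : List ℕ → ℝ) (c s : ℝ) (u : List ℕ) (hu : u ∈ S) :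
    split_Pm S f g c s u = c * pathPotential f u := by
  simp [split_Pm, split_A_mem S f c u hu, split_pi_mem S g u hu, split_km_zero]

/-- on `S` the coefficients of both tests are `c * f` -/
theorem split_coef_Pp_mem (S : Finset (List ℕ)) (hS : ∀ a v, a :: v ∈ S → v ∈ S)
    (f g : List ℕ → ℝ) (c s : ℝ) (u : List ℕ) (hu : u ∈ S) :
    split_coef (split_Pp S f g c s) u = c * f u := by
  cases u with
  | nil => simp [split_coef, split_Pp_mem S f g c s [] hu, pathPotential]
  | cons a v =>
    simp only [split_coef, split_Pp_mem S f g c s _ hu, split_Pp_mem S f g c s v (hS a v hu),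
      pathPotential]
    ring

theorem split_coef_Pm_mem (S : Finset (List ℕ)) (hS : ∀ a v, a :: v ∈ S → v ∈ S)
    (f g : List ℕ → ℝ) (c s : ℝ) (u : List ℕ) (hu : u ∈ S) :
    split_coef (split_Pm S f g c s) u = c * f u := by
  cases u with
  | nil => simp [split_coef, split_Pm_mem S f g c s [] hu, pathPotential]
  | cons a v =>
    simp only [split_coef, split_Pm_mem S f g c s _ hu, split_Pm_mem S f g c s v (hS a v hu),
      pathPotential]
    ring

/-- off `S` the difference of the coefficients is `s * g` -/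
theorem split_coef_sub (S : Finset (List ℕ)) (f g : List ℕ → ℝ) (c s : ℝ) (u : List ℕ)
    (hu : u ∉ S) :
    split_coef (split_Pp S f g c s) u - split_coef (split_Pm S f g c s) u = s * g u := by
  have key : ∀ w, split_Pp S f g c s w - split_Pm S f g c s w = s * split_pi S g w := by
    intro w
    have := split_kp_add_km (split_A S f c w) (split_pi S g w)
    simp only [split_Pp, split_Pm]
    linear_combination s * this
  cases u with
  | nil =>
    simp only [split_coef]
    rw [key, split_pi_nil S g hu]
  | cons a v =>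
    simp only [split_coef]
    have h1 := key (a :: v)
    have h2 := key v
    rw [split_pi_cons S g a v hu] at h1
    linear_combination h1 - h2

/-- off `S` the coefficients of the "plus" test are dominated by `s * |g|` -/
theorem split_coef_Pp_abs_le (S : Finset (List ℕ)) (f g : List ℕ → ℝ) (c s : ℝ)
    (hc0 : 0 ≤ c) (hc1 : c ≤ 1) (hs0 : 0 ≤ s) (hf : ∀ v, |pathPotential f v| ≤ 1)
    (u : List ℕ) (hu : u ∉ S) :
    |split_coef (split_Pp S f g c s) u| ≤ s * |g u| := by
  cases u with
  | nil =>
    simp only [split_coef, split_Pp, split_A_nil S f c hu, split_pi_nil S g hu, zero_add]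
    rw [abs_mul, abs_of_nonneg hs0]
    exact mul_le_mul_of_nonneg_left (split_kp_abs_le 0 (by simp) _) hs0
  | cons a v =>
    simp only [split_coef, split_Pp, split_A_cons S f c a v hu, split_pi_cons S g a v hu]
    have hA := split_A_abs_le S f c hc0 hc1 hf v
    have hl := split_kp_lip (split_A S f c v) hA (split_pi S g v + g (a :: v)) (split_pi S g v)
    have e : split_A S f c v + s * split_kp (split_A S f c v) (split_pi S g v + g (a :: v)) -
        (split_A S f c v + s * split_kp (split_A S f c v) (split_pi S g v)) =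
        s * (split_kp (split_A S f c v) (split_pi S g v + g (a :: v)) -
          split_kp (split_A S f c v) (split_pi S g v)) := by ring
    rw [e, abs_mul, abs_of_nonneg hs0]
    refine mul_le_mul_of_nonneg_left (hl.trans (le_of_eq ?_)) hs0
    congr 1
    ring

/-- off `S` the coefficients of the "minus" test are dominated by `s * |g|` -/
theorem split_coef_Pm_abs_le (S : Finset (List ℕ)) (f g : List ℕ → ℝ) (c s : ℝ)
    (hc0 : 0 ≤ c) (hc1 : c ≤ 1) (hs0 : 0 ≤ s) (hf : ∀ v, |pathPotential f v| ≤ 1)
    (u : List ℕ) (hu : u ∉ S) :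
    |split_coef (split_Pm S f g c s) u| ≤ s * |g u| := by
  cases u with
  | nil =>
    simp only [split_coef, split_Pm, split_A_nil S f c hu, split_pi_nil S g hu, zero_sub]
    rw [abs_neg, abs_mul, abs_of_nonneg hs0]
    exact mul_le_mul_of_nonneg_left (split_km_abs_le 0 (by simp) _) hs0
  | cons a v =>
    simp only [split_coef, split_Pm, split_A_cons S f c a v hu, split_pi_cons S g a v hu]
    have hA := split_A_abs_le S f c hc0 hc1 hf v
    have hl := split_km_lip (split_A S f c v) hA (split_pi S g v + g (a :: v)) (split_pi S g v)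
    have e : split_A S f c v - s * split_km (split_A S f c v) (split_pi S g v + g (a :: v)) -
        (split_A S f c v - s * split_km (split_A S f c v) (split_pi S g v)) =
        -(s * (split_km (split_A S f c v) (split_pi S g v + g (a :: v)) -
          split_km (split_A S f c v) (split_pi S g v))) := by ring
    rw [e, abs_neg, abs_mul, abs_of_nonneg hs0]
    refine mul_le_mul_of_nonneg_left (hl.trans (le_of_eq ?_)) hs0
    congr 1
    ring

/-- square-sum estimate for a function dominated by `c f` on `S` and by `s g` off `S` -/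
theorem split_sum_sq_le {ι : Type*} (T : Finset ι) (e : ι → List ℕ) (S : Finset (List ℕ))
    (f g h : List ℕ → ℝ) (c s : ℝ)
    (h1 : ∀ u ∈ S, h u = c * f u) (h2 : ∀ u, u ∉ S → |h u| ≤ s * |g u|) :
    ∑ i ∈ T, h (e i) ^ 2 ≤ c ^ 2 * ∑ i ∈ T.filter (fun i => e i ∈ S), f (e i) ^ 2 +
      s ^ 2 * ∑ i ∈ T.filter (fun i => e i ∉ S), g (e i) ^ 2 := by
  rw [← Finset.sum_filter_add_sum_filter_not T (fun i => e i ∈ S), Finset.mul_sum, Finset.mul_sum]
  refine add_le_add (Finset.sum_le_sum fun i hi => ?_) (Finset.sum_le_sum fun i hi => ?_)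
  · rw [h1 _ (Finset.mem_filter.1 hi).2]
    exact le_of_eq (by ring)
  · have := h2 _ (Finset.mem_filter.1 hi).2
    have h3 : h (e i) ^ 2 = |h (e i)| ^ 2 := (sq_abs _).symm
    have h4 : s ^ 2 * g (e i) ^ 2 = (s * |g (e i)|) ^ 2 := by rw [mul_pow, sq_abs]
    rw [h3, h4]
    exact pow_le_pow_left₀ (abs_nonneg _) this 2

/-- the extra condition of every model is inherited by a function dominated by `c f` on `S` and by
`s g` off `S` when `c² + s² = 1` -/
theorem split_extra (m : PotentialModel) (S : Finset (List ℕ)) (f g h : List ℕ → ℝ) (c s : ℝ)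
    (hs0 : 0 ≤ s) (hcs : c ^ 2 + s ^ 2 = 1)
    (h1 : ∀ u ∈ S, h u = c * f u) (h2 : ∀ u, u ∉ S → |h u| ≤ s * |g u|)
    (hf : ExtraCondition m f) (hg : ExtraCondition m g) : ExtraCondition m h := by
  have hc2 : 0 ≤ c ^ 2 := sq_nonneg c
  have hs2 : 0 ≤ s ^ 2 := sq_nonneg s
  have comb : ∀ a b : ℝ, a ≤ 1 → b ≤ 1 → c ^ 2 * a + s ^ 2 * b ≤ 1 := by
    intro a b ha hb
    nlinarith
  have hzero : ∀ u, f u = 0 → g u = 0 → h u = 0 := by
    intro u hfu hgu
    by_cases hu : u ∈ S
    · rw [h1 u hu, hfu, mul_zero]
    · have := h2 u hu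
      rw [hgu, abs_zero, mul_zero] at this
      exact abs_nonpos_iff.1 this
  cases m with
  | rootlessSibling =>
    obtain ⟨hf0, hf⟩ := hf
    obtain ⟨hg0, hg⟩ := hg
    refine ⟨hzero [] hf0 hg0, fun r A => ?_⟩
    refine (split_sum_sq_le A (fun n => n :: r) S f g h c s h1 h2).trans ?_
    exact comb _ _ (hf r _) (hg r _)
  | rootedSibling =>
    intro r A
    refine (split_sum_sq_le A (fun n => n :: r) S f g h c s h1 h2).trans ?_
    exact comb _ _ (hf r _) (hg r _)
  | antichain =>
    obtain ⟨hfs, hf⟩ := hf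
    obtain ⟨hgs, hg⟩ := hg
    refine ⟨(hfs.union hgs).subset ?_, fun A hA => ?_⟩
    · intro u hu
      by_contra hcon
      simp only [Set.mem_union, Function.mem_support, not_or, not_not] at hcon
      exact hu (hzero u hcon.1 hcon.2)
    · have hsub : ∀ (p : List ℕ → Prop) [DecidablePred p], IsTreeAntichain (A.filter p) := by
        intro p _ u hu v hv huv
        exact hA u (Finset.mem_filter.1 hu).1 v (Finset.mem_filter.1 hv).1 huv
      refine (split_sum_sq_le A (fun u => u) S f g h c s h1 h2).trans ?_
      exact comb _ _ (hf _ (hsub _)) (hg _ (hsub _))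
  | global =>
    intro A
    refine (split_sum_sq_le A (fun u => u) S f g h c s h1 h2).trans ?_
    exact comb _ _ (hf _) (hg _)

/-- **Splitting lemma.**  Two tests `f`, `g` of a model, a finite ancestor-closed set `S` and
`c, s ≥ 0` with `c² + s² = 1` give two tests `hp`, `hm` equal to `c • f` on `S` whose difference is
`s • g` off `S`. -/
theorem split_tests (m : PotentialModel) (S : Finset (List ℕ)) (hS : ∀ a v, a :: v ∈ S → v ∈ S)
    (f g : List ℕ → ℝ) (hf : IsTest m f) (hg : IsTest m g) (c s : ℝ) (hc : 0 ≤ c) (hs : 0 ≤ s)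
    (hcs : c ^ 2 + s ^ 2 = 1) :
    ∃ hp hm : List ℕ → ℝ, IsTest m hp ∧ IsTest m hm ∧
      (∀ u ∈ S, hp u = c * f u ∧ hm u = c * f u) ∧ (∀ u, u ∉ S → hp u - hm u = s * g u) := by
  have hc1 : c ≤ 1 := by nlinarith
  have hs1 : s ≤ 1 := by nlinarith
  refine ⟨split_coef (split_Pp S f g c s), split_coef (split_Pm S f g c s), ⟨?_, ?_⟩, ⟨?_, ?_⟩,
    fun u hu => ⟨split_coef_Pp_mem S hS f g c s u hu, split_coef_Pm_mem S hS f g c s u hu⟩,
    fun u hu => split_coef_sub S f g c s u hu⟩
  · intro u
    rw [split_pathPotential_coef]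
    exact split_kp_bound _ _ s (split_A_abs_le S f c hc hc1 hf.1 u) (split_pi_abs_le S g hg.1 u)
      hs hs1
  · exact split_extra m S f g _ c s hs hcs (fun u hu => split_coef_Pp_mem S hS f g c s u hu)
      (fun u hu => split_coef_Pp_abs_le S f g c s hc hc1 hs hf.1 u hu) hf.2 hg.2
  · intro u
    rw [split_pathPotential_coef]
    exact split_km_bound _ _ s (split_A_abs_le S f c hc hc1 hf.1 u) (split_pi_abs_le S g hg.1 u)
      hs hs1
  · exact split_extra m S f g _ c s hs hcs (fun u hu => split_coef_Pm_mem S hS f g c s u hu)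
      (fun u hu => split_coef_Pm_abs_le S f g c s hc hc1 hs hf.1 u hu) hf.2 hg.2

end Crest.Agent.S0168
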