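import Mathlib
import Crest.Prelude.Def_TreePotentials
import Crest.Agent.S0168.Split

/-!
# Row 125 / S0168 — the asymptotic midpoint inequality of the tree-potential models (helper62)

`model_far_cof m x η hη` : for every `x` in the model space and every `η > 0` there is a closed
finite-codimensional subspace `F` with `√(4‖x‖² + ‖y‖²) - η ≤ ‖x + y‖ + ‖x - y‖` for all `y ∈ F`.
Corollary `model_midpointGE` : the second conjunct of S0168 (for all `t > 0`).
-/

set_option autoImplicit false

namespace Crest.Agent.S0168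

open Crest.AnalysisR Crest.AnalysisR.TreePotential

/-! ### Tests -/

theorem mid_pathPotential_zero (u : List ℕ) : pathPotential (0 : List ℕ → ℝ) u = 0 := by
  induction u with
  | nil => rfl
  | cons a v ih => simp [pathPotential, ih]

theorem mid_pathPotential_neg (f : List ℕ → ℝ) (u : List ℕ) :
    pathPotential (-f) u = -pathPotential f u := by
  induction u with
  | nil => rfl
  | cons a v ih => simp [pathPotential, ih]; ring

theorem mid_isTest_zero (m : PotentialModel) : IsTest m (0 : List ℕ → ℝ) := by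
  refine ⟨fun s => by simp [mid_pathPotential_zero], ?_⟩
  cases m with
  | rootlessSibling => exact ⟨rfl, fun r A => by simp⟩
  | rootedSibling => exact fun r A => by simp
  | antichain => exact ⟨by simp, fun A _ => by simp⟩
  | global => exact fun A => by simp

theorem mid_isTest_neg (m : PotentialModel) (f : List ℕ → ℝ) (hf : IsTest m f) : IsTest m (-f) := by
  refine ⟨fun s => by rw [mid_pathPotential_neg, abs_neg]; exact hf.1 s, ?_⟩
  have h := hf.2
  cases m with
  | rootlessSibling => exact ⟨by simp [h.1], fun r A => by simpa using h.2 r A⟩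
  | rootedSibling => exact fun r A => by simpa using h r A
  | antichain =>
    refine ⟨?_, fun A hA => by simpa using h.2 A hA⟩
    have : Function.support (-f) = Function.support f := by
      ext u; simp
    rw [this]; exact h.1
  | global => exact fun A => by simpa using h A

instance mid_nonempty_test (m : PotentialModel) : Nonempty (PotentialTest m) :=
  ⟨⟨0, mid_isTest_zero m⟩⟩

/-- potential of the indicator of a vertex -/
theorem mid_pathPotential_single (s u : List ℕ) :
    pathPotential (Pi.single s (1 : ℝ)) u = if s <:+ u then 1 else 0 := by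
  induction u with
  | nil =>
    by_cases h : s = []
    · subst h; simp [pathPotential]
    · have h' : ¬ s <:+ [] := by rw [List.suffix_nil]; exact h
      simp [pathPotential, h', Ne.symm h]
  | cons a v ih =>
    simp only [pathPotential, ih]
    by_cases h : s = a :: v
    · subst h
      have h' : ¬ (a :: v) <:+ v := by
        intro hs
        have := hs.length_le
        simp at this
      simp [h']
    · have hiff : s <:+ a :: v ↔ s <:+ v := by
        rw [List.suffix_cons_iff]
        exact ⟨fun hh => hh.resolve_left h, Or.inr⟩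
      have hne : ¬ a :: v = s := fun hh => h hh.symm
      simp [hiff, hne]

theorem mid_sum_single_sq_le {ι : Type*} (T : Finset ι) (e : ι → List ℕ)
    (he : Function.Injective e) (s : List ℕ) :
    ∑ i ∈ T, ((Pi.single s (1 : ℝ) : List ℕ → ℝ) (e i)) ^ 2 ≤ 1 := by
  classical
  by_cases h : ∃ i ∈ T, e i = s
  · obtain ⟨i0, hi0, hi0s⟩ := h
    rw [Finset.sum_eq_single i0]
    · simp [hi0s]
    · intro i _ hne
      have : e i ≠ s := fun hh => hne (he (hh.trans hi0s.symm))
      simp [this]
    · intro hh; exact absurd hi0 hh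
  · push Not at h
    rw [Finset.sum_eq_zero]
    · exact zero_le_one
    · intro i hi
      simp [h i hi]

/-- the indicator of a vertex is a test (except for the root in the rootless model) -/
theorem mid_isTest_single (m : PotentialModel) (s : List ℕ)
    (hs : m = PotentialModel.rootlessSibling → s ≠ []) : IsTest m (Pi.single s (1 : ℝ)) := by
  refine ⟨fun u => ?_, ?_⟩
  · rw [mid_pathPotential_single]
    split_ifs <;> simp
  · have hcons : ∀ r : List ℕ, Function.Injective (fun n : ℕ => n :: r) := by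
      intro r n1 n2 h
      simpa using h
    cases m with
    | rootlessSibling =>
      refine ⟨?_, fun r A => mid_sum_single_sq_le A _ (hcons r) s⟩
      have := hs rfl
      simp [Ne.symm this]
    | rootedSibling => exact fun r A => mid_sum_single_sq_le A _ (hcons r) s
    | antichain =>
      refine ⟨?_, fun A _ => mid_sum_single_sq_le A _ (fun _ _ h => h) s⟩
      refine (Set.finite_singleton s).subset ?_
      intro u hu
      by_contra hne
      simp only [Set.mem_singleton_iff] at hne
      exact hu (by simp [hne])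
    | global => exact fun A => mid_sum_single_sq_le A _ (fun _ _ h => h) s

/-! ### Finitely supported arrays -/

/-- the ambient space of bounded functions on the tests -/
abbrev mid_L (m : PotentialModel) : Type := lp (fun _ : PotentialTest m => ℝ) ⊤

/-- the vector of a finitely supported array -/
noncomputable def mid_vec (m : PotentialModel) : (List ℕ →₀ ℝ) →ₗ[ℝ] mid_L m :=
  Finsupp.linearCombination ℝ (coordVector m)

/-- pairing of a coefficient family with a finitely supported array -/
noncomputable def mid_pair (f : List ℕ → ℝ) (a : List ℕ →₀ ℝ) : ℝ := a.sum fun s r => r * f s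

theorem mid_vec_apply (m : PotentialModel) (a : List ℕ →₀ ℝ) (f : PotentialTest m) :
    (mid_vec m a : mid_L m) f = mid_pair f.1 a := by
  unfold mid_vec mid_pair
  rw [Finsupp.linearCombination_apply, Finsupp.sum, lp.coeFn_sum, Finset.sum_apply, Finsupp.sum]
  refine Finset.sum_congr rfl fun s _ => ?_
  rw [lp.coeFn_smul, Pi.smul_apply, smul_eq_mul]
  rfl

theorem mid_pair_neg (f : List ℕ → ℝ) (a : List ℕ →₀ ℝ) : mid_pair (-f) a = -mid_pair f a := by
  unfold mid_pair
  rw [Finsupp.sum, Finsupp.sum, ← Finset.sum_neg_distrib]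
  refine Finset.sum_congr rfl fun s _ => ?_
  simp

theorem mid_pair_le_norm (m : PotentialModel) (a : List ℕ →₀ ℝ) (f : List ℕ → ℝ)
    (hf : IsTest m f) : mid_pair f a ≤ ‖mid_vec m a‖ := by
  have h := lp.norm_apply_le_norm ENNReal.top_ne_zero (mid_vec m a) ⟨f, hf⟩
  rw [mid_vec_apply, Real.norm_eq_abs] at h
  exact (le_abs_self _).trans h

theorem mid_apply_le_norm (m : PotentialModel) (x : mid_L m) (f : PotentialTest m) :
    x f ≤ ‖x‖ := by
  have h := lp.norm_apply_le_norm ENNReal.top_ne_zero x f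
  rw [Real.norm_eq_abs] at h
  exact (le_abs_self _).trans h

theorem mid_exists_pair_gt (m : PotentialModel) (a : List ℕ →₀ ℝ) (ε : ℝ) (hε : 0 < ε) :
    ∃ f : List ℕ → ℝ, IsTest m f ∧ ‖mid_vec m a‖ - ε < mid_pair f a := by
  have h1 : ‖mid_vec m a‖ - ε < ⨆ f : PotentialTest m, ‖(mid_vec m a : mid_L m) f‖ := by
    rw [← lp.norm_eq_ciSup]; linarith
  obtain ⟨f, hf⟩ := exists_lt_of_lt_ciSup h1
  rw [mid_vec_apply, Real.norm_eq_abs] at hf
  rcases le_total 0 (mid_pair f.1 a) with h | h
  · exact ⟨f.1, f.2, by rwa [abs_of_nonneg h] at hf⟩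
  · refine ⟨-f.1, mid_isTest_neg m f.1 f.2, ?_⟩
    rw [mid_pair_neg]
    rwa [abs_of_nonpos h] at hf

/-- the finite midpoint inequality in parametrised form -/
theorem mid_finite_param (m : PotentialModel) (S : Finset (List ℕ))
    (hS : ∀ a v, a :: v ∈ S → v ∈ S) (a b : List ℕ →₀ ℝ)
    (ha : ∀ u ∈ a.support, u ∈ S) (hb : ∀ u ∈ b.support, u ∉ S)
    (c s : ℝ) (hc : 0 ≤ c) (hs : 0 ≤ s) (hcs : c ^ 2 + s ^ 2 = 1) :
    2 * c * ‖mid_vec m a‖ + s * ‖mid_vec m b‖ ≤
      ‖mid_vec m a + mid_vec m b‖ + ‖mid_vec m a - mid_vec m b‖ := by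
  have hc1 : c ≤ 1 := by nlinarith
  have hs1 : s ≤ 1 := by nlinarith
  refine le_of_forall_pos_le_add fun ε hε => ?_
  obtain ⟨f, hf, hfa⟩ := mid_exists_pair_gt m a (ε / 3) (by positivity)
  obtain ⟨g, hg, hgb⟩ := mid_exists_pair_gt m b (ε / 3) (by positivity)
  obtain ⟨hp, hm, hhp, hhm, hS1, hS2⟩ := split_tests m S hS f g hf hg c s hc hs hcs
  have e1 : mid_pair hp a = c * mid_pair f a := by
    unfold mid_pair
    rw [Finsupp.sum, Finsupp.sum, Finset.mul_sum]
    refine Finset.sum_congr rfl fun u hu => ?_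
    rw [(hS1 u (ha u hu)).1]; ring
  have e2 : mid_pair hm a = c * mid_pair f a := by
    unfold mid_pair
    rw [Finsupp.sum, Finsupp.sum, Finset.mul_sum]
    refine Finset.sum_congr rfl fun u hu => ?_
    rw [(hS1 u (ha u hu)).2]; ring
  have e3 : mid_pair hp b - mid_pair hm b = s * mid_pair g b := by
    unfold mid_pair
    rw [Finsupp.sum, Finsupp.sum, Finsupp.sum, Finset.mul_sum, ← Finset.sum_sub_distrib]
    refine Finset.sum_congr rfl fun u hu => ?_
    have := hS2 u (hb u hu)
    linear_combination (b u) * this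
  have n1 : mid_pair hp a + mid_pair hp b ≤ ‖mid_vec m a + mid_vec m b‖ := by
    have := mid_pair_le_norm m (a + b) hp hhp
    rw [map_add] at this
    refine le_trans (le_of_eq ?_) this
    unfold mid_pair
    rw [Finsupp.sum_add_index' (by simp) (by intro u r1 r2; ring)]
  have n2 : mid_pair hm a - mid_pair hm b ≤ ‖mid_vec m a - mid_vec m b‖ := by
    have := mid_pair_le_norm m (a - b) hm hhm
    rw [map_sub] at this
    refine le_trans (le_of_eq ?_) this
    unfold mid_pair
    rw [Finsupp.sum_sub_index (by intro u r1 r2; ring)]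
  have hA : 0 ≤ ‖mid_vec m a‖ := norm_nonneg _
  have hB : 0 ≤ ‖mid_vec m b‖ := norm_nonneg _
  nlinarith

theorem mid_sqrt_lip (A B A' B' dA dB : ℝ) (hA' : 0 ≤ A') (hB' : 0 ≤ B')
    (hdA : |A - A'| ≤ dA) (hdB : |B - B'| ≤ dB) :
    Real.sqrt (4 * A ^ 2 + B ^ 2) ≤ Real.sqrt (4 * A' ^ 2 + B' ^ 2) + 2 * dA + dB := by
  set R := Real.sqrt (4 * A' ^ 2 + B' ^ 2) with hR
  have hR0 : 0 ≤ R := Real.sqrt_nonneg _
  have hRsq : R ^ 2 = 4 * A' ^ 2 + B' ^ 2 := Real.sq_sqrt (by positivity)
  have hdA0 : 0 ≤ dA := (abs_nonneg _).trans hdA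
  have hdB0 : 0 ≤ dB := (abs_nonneg _).trans hdB
  have h2A : 2 * A' ≤ R := by
    rw [hR]; apply Real.le_sqrt_of_sq_le; nlinarith
  have hBR : B' ≤ R := by
    rw [hR]; apply Real.le_sqrt_of_sq_le; nlinarith
  obtain ⟨a1, a2⟩ := abs_le.1 hdA
  obtain ⟨b1, b2⟩ := abs_le.1 hdB
  rw [Real.sqrt_le_left (by positivity)]
  have hAsq : A ^ 2 ≤ (A' + dA) ^ 2 := by
    apply sq_le_sq'
    · linarith
    · linarith
  have hBsq : B ^ 2 ≤ (B' + dB) ^ 2 := by
    apply sq_le_sq'
    · linarith
    · linarith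
  nlinarith [mul_nonneg hdA0 hdB0, mul_nonneg hdA0 (sub_nonneg.2 h2A),
    mul_nonneg hdB0 (sub_nonneg.2 hBR)]

/-- the finite midpoint inequality -/
theorem mid_finite (m : PotentialModel) (S : Finset (List ℕ))
    (hS : ∀ a v, a :: v ∈ S → v ∈ S) (a b : List ℕ →₀ ℝ)
    (ha : ∀ u ∈ a.support, u ∈ S) (hb : ∀ u ∈ b.support, u ∉ S) :
    Real.sqrt (4 * ‖mid_vec m a‖ ^ 2 + ‖mid_vec m b‖ ^ 2) ≤
      ‖mid_vec m a + mid_vec m b‖ + ‖mid_vec m a - mid_vec m b‖ := by
  set A := ‖mid_vec m a‖ with hAdef
  set B := ‖mid_vec m b‖ with hBdef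
  have hA : 0 ≤ A := norm_nonneg _
  have hB : 0 ≤ B := norm_nonneg _
  set R := Real.sqrt (4 * A ^ 2 + B ^ 2) with hR
  have hR0 : 0 ≤ R := Real.sqrt_nonneg _
  have hRsq : R ^ 2 = 4 * A ^ 2 + B ^ 2 := Real.sq_sqrt (by positivity)
  rcases eq_or_lt_of_le hR0 with h0 | hpos
  · rw [← h0]; positivity
  · have key := mid_finite_param m S hS a b ha hb (2 * A / R) (B / R) (by positivity) (by positivity)
      (by field_simp; linarith)
    have e : 2 * (2 * A / R) * A + B / R * B = R := by
      field_simp; linarith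
    rw [← hAdef, ← hBdef, e] at key
    exact key

/-! ### Coordinate functionals and approximation -/

theorem mid_pair_single (s : List ℕ) (b : List ℕ →₀ ℝ) :
    mid_pair (Pi.single s (1 : ℝ)) b = b s := by
  classical
  unfold mid_pair
  rw [Finsupp.sum]
  simp only [Pi.single_apply, mul_ite, mul_one, mul_zero]
  rw [Finset.sum_ite_eq']
  split_ifs with h
  · rfl
  · exact (Finsupp.notMem_support_iff.1 h).symm

theorem mid_coordVector_root :
    coordVector PotentialModel.rootlessSibling [] = 0 := by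
  apply lp.ext
  funext f
  exact f.2.2.1

/-- `δ_s` as a test (the zero test when `δ_s` is not a test) -/
noncomputable def mid_delta (m : PotentialModel) (s : List ℕ) : PotentialTest m := by
  classical
  exact if h : IsTest m (Pi.single s (1 : ℝ)) then ⟨Pi.single s 1, h⟩ else ⟨0, mid_isTest_zero m⟩

/-- the coefficient bound: the `s`-term of an array is controlled by the value at `δ_s` -/
theorem mid_coef_bound (m : PotentialModel) (b : List ℕ →₀ ℝ) (s : List ℕ) :
    ‖b s • coordVector m s‖ ≤ |(mid_vec m b : mid_L m) (mid_delta m s)| * ‖coordVector m s‖ := by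
  classical
  by_cases h : IsTest m (Pi.single s (1 : ℝ))
  · have hd : (mid_delta m s).1 = Pi.single s (1 : ℝ) := by
      unfold mid_delta
      rw [dif_pos h]
    rw [mid_vec_apply, hd, mid_pair_single, norm_smul, Real.norm_eq_abs]
  · have hz : coordVector m s = 0 := by
      have h1 : m = PotentialModel.rootlessSibling ∧ s = [] := by
        by_contra hcon
        exact h (mid_isTest_single m s (fun hm hs => hcon ⟨hm, hs⟩))
      obtain ⟨rfl, rfl⟩ := h1
      exact mid_coordVector_root
    rw [hz]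
    simp

theorem mid_vec_eq_sum (m : PotentialModel) (b : List ℕ →₀ ℝ) (S : Finset (List ℕ)) :
    mid_vec m b = mid_vec m (b.filter (fun u => u ∉ S)) + ∑ s ∈ S, b s • coordVector m s := by
  classical
  have h1 : b = b.filter (fun u => u ∈ S) + b.filter (fun u => u ∉ S) :=
    (Finsupp.filter_add_filter_not b (fun u => u ∈ S)).symm
  have h2 : mid_vec m (b.filter (fun u => u ∈ S)) = ∑ s ∈ S, b s • coordVector m s := by
    unfold mid_vec
    rw [Finsupp.linearCombination_apply,
      Finsupp.sum_of_support_subset (s := S) _ (by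
        intro u hu
        rw [Finsupp.support_filter, Finset.mem_filter] at hu
        exact hu.2) _ (by intro i _; simp)]
    refine Finset.sum_congr rfl fun s hs => ?_
    rw [Finsupp.filter_apply_pos _ _ hs]
  conv_lhs => rw [h1]
  rw [map_add, h2, add_comm]

/-- elements of the model space are limits of finitely supported arrays -/
theorem mid_approx (m : PotentialModel) (x : mid_L m) (hx : x ∈ modelSpace m) (ε : ℝ)
    (hε : 0 < ε) : ∃ a : List ℕ →₀ ℝ, ‖x - mid_vec m a‖ < ε := by
  have hx' : x ∈ closure ((Submodule.span ℝ (Set.range (coordVector m)) :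
      Submodule ℝ (mid_L m)) : Set (mid_L m)) := by
    rw [← Submodule.topologicalClosure_coe]
    exact hx
  obtain ⟨b, hb, hxb⟩ := Metric.mem_closure_iff.1 hx' ε hε
  have hb' : b ∈ LinearMap.range (Finsupp.linearCombination ℝ (coordVector m)) := by
    rw [Finsupp.range_linearCombination]
    exact hb
  obtain ⟨a, rfl⟩ := hb'
  exact ⟨a, by rw [← dist_eq_norm]; exact hxb⟩

/-- the ancestor closure of a finite set of vertices -/
def mid_anc (T : Finset (List ℕ)) : Finset (List ℕ) :=
  T.biUnion fun u => u.tails.toFinset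

theorem mid_subset_anc (T : Finset (List ℕ)) : ∀ u ∈ T, u ∈ mid_anc T := by
  intro u hu
  unfold mid_anc
  rw [Finset.mem_biUnion]
  exact ⟨u, hu, by rw [List.mem_toFinset, List.mem_tails]⟩

theorem mid_anc_closed (T : Finset (List ℕ)) : ∀ a v, a :: v ∈ mid_anc T → v ∈ mid_anc T := by
  intro a v h
  unfold mid_anc at h ⊢
  rw [Finset.mem_biUnion] at h ⊢
  obtain ⟨u, hu, h⟩ := h
  rw [List.mem_toFinset, List.mem_tails] at h
  exact ⟨u, hu, by rw [List.mem_toFinset, List.mem_tails]; exact (List.suffix_cons a v).trans h⟩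

/-- vectors of the model space killed by the `δ_s`, `s ∈ S`, are limits of arrays supported off `S` -/
theorem mid_approx_off (m : PotentialModel) (S : Finset (List ℕ)) (y : mid_L m)
    (hy : y ∈ modelSpace m) (hyS : ∀ s ∈ S, y (mid_delta m s) = 0) (ε : ℝ) (hε : 0 < ε) :
    ∃ b : List ℕ →₀ ℝ, (∀ u ∈ b.support, u ∉ S) ∧ ‖y - mid_vec m b‖ < ε := by
  classical
  set K : ℝ := ∑ s ∈ S, ‖coordVector m s‖ with hK
  have hK0 : 0 ≤ K := Finset.sum_nonneg fun s _ => norm_nonneg _
  obtain ⟨b, hb⟩ := mid_approx m y hy (ε / (1 + K)) (by positivity)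
  refine ⟨b.filter (fun u => u ∉ S), ?_, ?_⟩
  · intro u hu
    rw [Finsupp.support_filter, Finset.mem_filter] at hu
    exact hu.2
  · have hdec := mid_vec_eq_sum m b S
    have hsum : ‖∑ s ∈ S, b s • coordVector m s‖ ≤ ‖y - mid_vec m b‖ * K := by
      rw [hK, Finset.mul_sum]
      refine (norm_sum_le _ _).trans (Finset.sum_le_sum fun s hs => ?_)
      refine (mid_coef_bound m b s).trans ?_
      refine mul_le_mul_of_nonneg_right ?_ (norm_nonneg _)
      have h1 : (mid_vec m b : mid_L m) (mid_delta m s) =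
          -((y - mid_vec m b : mid_L m) (mid_delta m s)) := by
        rw [lp.coeFn_sub, Pi.sub_apply, hyS s hs]
        ring
      rw [h1, abs_neg]
      have := lp.norm_apply_le_norm ENNReal.top_ne_zero (y - mid_vec m b) (mid_delta m s)
      rwa [Real.norm_eq_abs] at this
    have h2 : y - mid_vec m (b.filter (fun u => u ∉ S)) =
        (y - mid_vec m b) + ∑ s ∈ S, b s • coordVector m s := by
      rw [hdec]; abel
    rw [h2]
    have h3 : ‖y - mid_vec m b‖ * (1 + K) < ε := by
      rwa [lt_div_iff₀ (by positivity)] at hb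
    calc ‖(y - mid_vec m b) + ∑ s ∈ S, b s • coordVector m s‖
        ≤ ‖y - mid_vec m b‖ + ‖∑ s ∈ S, b s • coordVector m s‖ := norm_add_le _ _
      _ ≤ ‖y - mid_vec m b‖ + ‖y - mid_vec m b‖ * K := by linarith
      _ = ‖y - mid_vec m b‖ * (1 + K) := by ring
      _ < ε := h3

/-- the midpoint inequality in the ambient space -/
theorem mid_ambient (m : PotentialModel) (x : mid_L m) (hx : x ∈ modelSpace m) (η : ℝ)
    (hη : 0 < η) : ∃ S : Finset (List ℕ), ∀ y : mid_L m, y ∈ modelSpace m →
      (∀ s ∈ S, y (mid_delta m s) = 0) →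
      Real.sqrt (4 * ‖x‖ ^ 2 + ‖y‖ ^ 2) - η ≤ ‖x + y‖ + ‖x - y‖ := by
  obtain ⟨a, ha⟩ := mid_approx m x hx (η / 8) (by positivity)
  refine ⟨mid_anc a.support, fun y hy hyS => ?_⟩
  obtain ⟨b, hbS, hb⟩ := mid_approx_off m (mid_anc a.support) y hy hyS (η / 6) (by positivity)
  have hfin := mid_finite m (mid_anc a.support) (mid_anc_closed a.support) a b
    (mid_subset_anc a.support) hbS
  have hlip := mid_sqrt_lip ‖x‖ ‖y‖ ‖mid_vec m a‖ ‖mid_vec m b‖ (η / 8) (η / 6)
    (norm_nonneg _) (norm_nonneg _)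
    ((abs_norm_sub_norm_le _ _).trans ha.le) ((abs_norm_sub_norm_le _ _).trans hb.le)
  have hp : ‖mid_vec m a + mid_vec m b‖ ≤ ‖x + y‖ + ‖x - mid_vec m a‖ + ‖y - mid_vec m b‖ := by
    have e : mid_vec m a + mid_vec m b = (x + y) - (x - mid_vec m a) - (y - mid_vec m b) := by
      abel
    rw [e]
    exact (norm_sub_le _ _).trans (add_le_add_left (norm_sub_le _ _) _)
  have hq : ‖mid_vec m a - mid_vec m b‖ ≤ ‖x - y‖ + ‖x - mid_vec m a‖ + ‖y - mid_vec m b‖ := by
    have e : mid_vec m a - mid_vec m b = (x - y) - (x - mid_vec m a) + (y - mid_vec m b) := by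
      abel
    rw [e]
    exact (norm_add_le _ _).trans (add_le_add_left (norm_sub_le _ _) _)
  linarith

/-! ### The main statements -/

/-- **The "far" midpoint inequality of the model spaces.** -/
theorem model_far_cof (m : PotentialModel) (x : modelSpace m) (η : ℝ) (hη : 0 < η) :
    ∃ F : Submodule ℝ (modelSpace m), IsClosed (F : Set (modelSpace m)) ∧
      FiniteDimensional ℝ (modelSpace m ⧸ F) ∧
        ∀ y ∈ F, Real.sqrt (4 * ‖x‖ ^ 2 + ‖y‖ ^ 2) - η ≤ ‖x + y‖ + ‖x - y‖ := by
  obtain ⟨S, hS⟩ := mid_ambient m (x : mid_L m) x.2 η hη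
  let Φ : modelSpace m →L[ℝ] (S → ℝ) :=
    ContinuousLinearMap.pi fun s : S =>
      (lp.evalCLM ℝ (fun _ : PotentialTest m => ℝ) ⊤ (mid_delta m s.1)).comp
        (modelSpace m).subtypeL
  refine ⟨LinearMap.ker (Φ : modelSpace m →ₗ[ℝ] (S → ℝ)), ?_, ?_, ?_⟩
  · exact ContinuousLinearMap.isClosed_ker Φ
  · exact (LinearMap.quotKerEquivRange (Φ : modelSpace m →ₗ[ℝ] (S → ℝ))).symm.finiteDimensional
  · intro y hy
    have hy0 : Φ y = 0 := hy
    refine hS (y : mid_L m) y.2 (fun s hs => ?_)
    have := congrFun hy0 ⟨s, hs⟩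
    exact this

/-- the midpoint modulus bound, stated with the instances of the subtype -/
theorem mid_midGE (m : PotentialModel) (t : ℝ) (ht : 0 < t) :
    ∀ x : modelSpace m, ‖x‖ = 1 → ∀ η : ℝ, 0 < η → ∃ F : Set (modelSpace m),
      (∃ S : Submodule ℝ (modelSpace m), (S : Set (modelSpace m)) = F ∧ IsClosed F ∧
        FiniteDimensional ℝ (modelSpace m ⧸ S)) ∧
      ∀ y ∈ F, ‖y‖ = 1 →
        (Real.sqrt (1 + t ^ 2 / 4) - 1) - η ≤ (‖x + t • y‖ + ‖x - t • y‖) / 2 - 1 := by
  intro x hx1 η hη
  obtain ⟨F, hFc, hFd, hF⟩ := model_far_cof m x (2 * η) (by positivity)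
  refine ⟨(F : Set (modelSpace m)), ⟨F, rfl, hFc, hFd⟩, fun y hy hy1 => ?_⟩
  have key := hF (t • y) (F.smul_mem t hy)
  have hnty : ‖t • y‖ = t := by
    rw [norm_smul, Real.norm_eq_abs, abs_of_pos ht, hy1, mul_one]
  rw [hx1, hnty] at key
  have hsq : Real.sqrt (4 * 1 ^ 2 + t ^ 2) = 2 * Real.sqrt (1 + t ^ 2 / 4) := by
    have : (4 : ℝ) * 1 ^ 2 + t ^ 2 = 2 ^ 2 * (1 + t ^ 2 / 4) := by ring
    rw [this, Real.sqrt_mul (by positivity), Real.sqrt_sq (by norm_num)]
  rw [hsq] at key
  linarith

/-- **Second conjunct of S0168** (for every `t > 0`). -/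
theorem model_midpointGE (m : PotentialModel) (t : ℝ) (ht : 0 < t) :
    (modelBanach m).MidpointModulusGE (modelBanach m).norm t (Real.sqrt (1 + t ^ 2 / 4) - 1) :=
  mid_midGE m t ht

end Crest.Agent.S0168
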