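import Crest.Agent.S0168.Tests
import Crest.Agent.S0168.Split

/-!
# Row 125 / S0168: the test-mixing construction (combinatorial core)

Given two tests `f`, `g`, a finite ancestor-closed set `S₁` of vertices containing the root and
`a, b ≥ 0` with `a² + b² = 1`, there are tests `hp`, `hm` with
`hp = hm = a • f` on `S₁` and `hp - hm = b • g` off `S₁`.

Construction. For `s ∉ S₁` let `anc s ∈ S₁` be its deepest ancestor in `S₁`,
`p = a * pathPotential f (anc s)` and `π s = pathPotential g s - pathPotential g (anc s)`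
(so `|π s| ≤ 2`). If `b = 0` take `hp = hm = f` on `S₁` and `0` elsewhere. Otherwise put
`Πp s = clamp (π s) (-(1 + p) / b) ((1 - p) / b)`, `Πm s = π s - Πp s` (both `0` on `S₁`), and
`kp s = Πp s - Πp (parent s)`, `km s = Πm s - Πm (parent s)` for `s ∉ S₁`; finally
`hp = a • f|S₁ + b • kp`, `hm = a • f|S₁ - b • km`. Then `kp + km = g` off `S₁`,
`|kp s|, |km s| ≤ |g s|`, the potential of `hp` at `s ∉ S₁` is `p + b * Πp s ∈ [-1, 1]`, the
potential of `hm` is `p - b * Πm s ∈ [-1, 1]` (uses `b ≤ 1`), and every square-sum condition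
holds because `a² + b² = 1`.
-/

set_option autoImplicit false

namespace Crest.Agent.S0168

open Crest.AnalysisR Crest.AnalysisR.TreePotential

/-- The test-mixing lemma. -/
theorem exists_mix (m : PotentialModel) (f g : List ℕ → ℝ) (hf : IsTest m f) (hg : IsTest m g)
    (S₁ : Finset (List ℕ)) (hroot : [] ∈ S₁)
    (hclosed : ∀ s ∈ S₁, ∀ u : List ℕ, u <:+ s → u ∈ S₁)
    (a b : ℝ) (ha : 0 ≤ a) (hb : 0 ≤ b) (hab : a ^ 2 + b ^ 2 = 1) :
    ∃ hp hm : List ℕ → ℝ, IsTest m hp ∧ IsTest m hm ∧
      (∀ s ∈ S₁, hp s = a * f s ∧ hm s = a * f s) ∧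
      (∀ s, s ∉ S₁ → hp s - hm s = b * g s) :=
  -- helper77: this is helper62's `split_tests` (Crest/Agent/S0168/Split.lean), up to the shape of
  -- the closedness hypothesis; `hroot` is not needed.
  split_tests m S₁ (fun c v h => hclosed _ h v (List.suffix_cons c v)) f g hf hg a b ha hb hab

end Crest.Agent.S0168
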