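import Mathlib
import Crest.Prelude.Def_TreePotentials
import Crest.Agent.S0166.Generic

/-!
Row 125, statement S0168: the two conjuncts that do not involve the midpoint modulus, for all
four bounded-potential models at once (helper47):

* `sep_noauc m` : `modelBanach m` is separable and infinite-dimensional, and no equivalent norm on
  it is asymptotically uniformly convex.

Ingredients: the indicator family `sna_delta u` of a non-root vertex is a test of every model;
the coordinate vectors `sna_e m s`; the branch sums `sna_z m v` (sum of the coordinate vectors of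
the non-root vertices on the root path of `v`), which have norm in `[1, 2]`; sibling sums of
coordinate vectors have norm at most `√(card)`. Then helper37's generic tree lemma applies.
-/

set_option autoImplicit false

namespace Crest.Agent.S0168

open Crest.AnalysisR Crest.AnalysisR.TreePotential

/-- The indicator family of the vertex `u`. -/
noncomputable def sna_delta (u : List ℕ) : List ℕ → ℝ := fun s => if s = u then 1 else 0

theorem sna_pathPotential_delta (u : List ℕ) (s : List ℕ) :
    pathPotential (sna_delta u) s = if u <:+ s then 1 else 0 := by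
  induction s with
  | nil =>
    simp only [pathPotential, sna_delta, List.suffix_nil]
    by_cases h : u = []
    · simp [h]
    · have h' : ¬ ([] = u) := fun h' => h h'.symm
      simp [h, h']
  | cons a v ih =>
    simp only [pathPotential, ih]
    by_cases h : u <:+ v
    · have h1 : a :: v ≠ u := by
        intro h2
        have h3 := h.length_le
        rw [← h2] at h3
        simp at h3
      have h3 : u <:+ a :: v := h.trans (List.suffix_cons a v)
      simp [sna_delta, h, h1, h3]
    · by_cases h2 : a :: v = u
      · have h3 : u <:+ a :: v := by rw [h2]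
        simp [sna_delta, h, h2]
      · have h3 : ¬ u <:+ a :: v := by
          rw [List.suffix_cons_iff]
          rintro (h4 | h4)
          · exact h2 h4.symm
          · exact h h4
        simp [sna_delta, h, h2, h3]

theorem sna_delta_sq_sum (u : List ℕ) (A : Finset (List ℕ)) :
    ∑ s ∈ A, sna_delta u s ^ 2 ≤ 1 := by
  have h : ∀ s, sna_delta u s ^ 2 = if s = u then 1 else 0 := by
    intro s
    unfold sna_delta
    split_ifs <;> simp
  simp only [h, Finset.sum_ite_eq']
  split_ifs <;> norm_num

/-- Sibling square sums are bounded as soon as all finite square sums are. -/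
theorem sna_sibling_of_global (f : List ℕ → ℝ)
    (hg : ∀ A : Finset (List ℕ), ∑ u ∈ A, f u ^ 2 ≤ 1) (r : List ℕ) (A : Finset ℕ) :
    ∑ n ∈ A, f (n :: r) ^ 2 ≤ 1 := by
  have h := hg (A.image (fun n => n :: r))
  rwa [Finset.sum_image (by
    intro a _ b _ hab
    exact (List.cons_eq_cons.mp hab).1)] at h

/-- The indicator family of a non-root vertex is a test of every model. -/
theorem sna_isTest_delta (m : PotentialModel) (u : List ℕ) (hu : u ≠ []) :
    IsTest m (sna_delta u) := by
  refine ⟨fun s => ?_, ?_⟩
  · rw [sna_pathPotential_delta]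
    split_ifs <;> simp
  · cases m with
    | rootlessSibling =>
      refine ⟨?_, fun r A => sna_sibling_of_global _ (sna_delta_sq_sum u) r A⟩
      have h' : ¬ ([] = u) := fun h' => hu h'.symm
      simp [sna_delta, h']
    | rootedSibling =>
      exact fun r A => sna_sibling_of_global _ (sna_delta_sq_sum u) r A
    | antichain =>
      refine ⟨?_, fun A _ => sna_delta_sq_sum u A⟩
      apply Set.Finite.subset (Set.finite_singleton u)
      intro s hs
      rw [Function.mem_support] at hs
      by_contra h
      apply hs
      have h2 : s ≠ u := h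
      simp [sna_delta, h2]
    | global =>
      exact fun A => sna_delta_sq_sum u A

/-- In every model, the squares of the values of a test on the children of a vertex have all
finite partial sums at most `1`. -/
theorem sna_sibling_sq (m : PotentialModel) (f : List ℕ → ℝ) (hf : IsTest m f) (v : List ℕ)
    (B : Finset ℕ) : ∑ n ∈ B, f (n :: v) ^ 2 ≤ 1 := by
  obtain ⟨-, he⟩ := hf
  cases m with
  | rootlessSibling => exact he.2 v B
  | rootedSibling => exact he v B
  | antichain =>
    have hanti : IsTreeAntichain (B.image (fun n => n :: v)) := by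
      intro a ha b hb hab hsuf
      rw [Finset.mem_image] at ha hb
      obtain ⟨n, -, rfl⟩ := ha
      obtain ⟨n', -, rfl⟩ := hb
      exact hab (hsuf.eq_of_length (by simp))
    have h := he.2 (B.image (fun n => n :: v)) hanti
    rwa [Finset.sum_image (by
      intro a _ b _ hab
      exact (List.cons_eq_cons.mp hab).1)] at h
  | global => exact sna_sibling_of_global f he v B

/-- The coordinate vector of `s`, as an element of the model space. -/
noncomputable def sna_e (m : PotentialModel) (s : List ℕ) : modelSpace m :=
  ⟨coordVector m s, Submodule.le_topologicalClosure _ (Submodule.subset_span ⟨s, rfl⟩)⟩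

theorem sna_e_apply (m : PotentialModel) (s : List ℕ) (f : PotentialTest m) :
    ((sna_e m s : modelSpace m) : lp (fun _ : PotentialTest m => ℝ) ⊤) f = f.1 s := rfl

/-- The branch sum at `v`: the sum of the coordinate vectors of the non-root vertices on the
root path of `v`. -/
noncomputable def sna_z (m : PotentialModel) : List ℕ → modelSpace m
  | [] => 0
  | a :: v => sna_z m v + sna_e m (a :: v)

theorem sna_z_apply (m : PotentialModel) (v : List ℕ) (f : PotentialTest m) :
    ((sna_z m v : modelSpace m) : lp (fun _ : PotentialTest m => ℝ) ⊤) f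
      = pathPotential f.1 v - f.1 [] := by
  induction v with
  | nil => simp [sna_z, pathPotential]
  | cons a v ih =>
    simp only [sna_z, pathPotential, Submodule.coe_add, lp.coeFn_add, Pi.add_apply, ih,
      sna_e_apply]
    ring

theorem sna_norm_le (m : PotentialModel) (x : modelSpace m) (C : ℝ) (hC : 0 ≤ C)
    (h : ∀ f : PotentialTest m, |(x : lp (fun _ : PotentialTest m => ℝ) ⊤) f| ≤ C) : ‖x‖ ≤ C := by
  rw [Submodule.coe_norm]
  exact lp.norm_le_of_forall_le hC (fun f => by simpa [Real.norm_eq_abs] using h f)

theorem sna_le_norm (m : PotentialModel) (x : modelSpace m) (f : PotentialTest m) :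
    |(x : lp (fun _ : PotentialTest m => ℝ) ⊤) f| ≤ ‖x‖ := by
  rw [Submodule.coe_norm]
  have h := lp.norm_apply_le_norm (by simp : (⊤ : ENNReal) ≠ 0)
    (x : lp (fun _ : PotentialTest m => ℝ) ⊤) f
  simpa [Real.norm_eq_abs] using h

theorem sna_one_le_norm_e (m : PotentialModel) (s : List ℕ) (hs : s ≠ []) : 1 ≤ ‖sna_e m s‖ := by
  obtain ⟨t, ht⟩ : ∃ t : PotentialTest m, t.1 = sna_delta s :=
    ⟨⟨sna_delta s, sna_isTest_delta m s hs⟩, rfl⟩
  have h := sna_le_norm m (sna_e m s) t
  rw [sna_e_apply, ht] at h
  simpa [sna_delta] using h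

theorem sna_norm_z_le (m : PotentialModel) (v : List ℕ) : ‖sna_z m v‖ ≤ 2 := by
  apply sna_norm_le m _ 2 (by norm_num)
  intro f
  rw [sna_z_apply]
  have h1 := f.2.1 v
  have h2 := f.2.1 []
  simp only [pathPotential] at h2
  rw [abs_le] at h1 h2 ⊢
  constructor <;> linarith [h1.1, h1.2, h2.1, h2.2]

theorem sna_one_le_norm_z (m : PotentialModel) (v : List ℕ) (hv : v ≠ []) : 1 ≤ ‖sna_z m v‖ := by
  obtain ⟨t, ht⟩ : ∃ t : PotentialTest m, t.1 = sna_delta v :=
    ⟨⟨sna_delta v, sna_isTest_delta m v hv⟩, rfl⟩
  have h := sna_le_norm m (sna_z m v) t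
  rw [sna_z_apply, ht] at h
  have h' : ¬ ([] = v) := fun h' => hv h'.symm
  simpa [sna_pathPotential_delta, sna_delta, h'] using h

theorem sna_norm_sum_siblings_le (m : PotentialModel) (v : List ℕ) (B : Finset ℕ) :
    ‖∑ n ∈ B, sna_e m (n :: v)‖ ≤ 1 * Real.sqrt B.card := by
  rw [one_mul]
  apply sna_norm_le m _ _ (Real.sqrt_nonneg _)
  intro f
  have hval : ((∑ n ∈ B, sna_e m (n :: v) : modelSpace m) :
      lp (fun _ : PotentialTest m => ℝ) ⊤) f = ∑ n ∈ B, f.1 (n :: v) := by
    rw [Submodule.coe_sum, lp.coeFn_sum, Finset.sum_apply]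
    rfl
  rw [hval]
  apply Real.abs_le_sqrt
  calc (∑ n ∈ B, f.1 (n :: v)) ^ 2 ≤ B.card * ∑ n ∈ B, f.1 (n :: v) ^ 2 :=
        sq_sum_le_card_mul_sum_sq
    _ ≤ B.card * 1 := by
        gcongr
        exact sna_sibling_sq m f.1 f.2 v B
    _ = B.card := mul_one _

/-- **S0168, non-midpoint conjuncts.** For each of the four models the generated space is
separable and infinite-dimensional and has no equivalent asymptotically uniformly convex norm. -/
theorem sep_noauc (m : PotentialModel) :
    (modelBanach m).IsSeparableInfiniteDim ∧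
      ∀ N : (modelBanach m).X → ℝ, (modelBanach m).IsEquivNorm N → ¬ (modelBanach m).IsAUC N := by
  have : CompleteSpace (modelSpace m) :=
    (Submodule.isClosed_topologicalClosure _).completeSpace_coe
  have hno : ∀ N : modelSpace m → ℝ, (Crest.Agent.S0166.rb (modelSpace m)).IsEquivNorm N →
      ¬ (Crest.Agent.S0166.rb (modelSpace m)).IsAUC N := by
    apply Crest.Agent.S0166.not_auc_of_tree'
      (fun z _ => ∃ v : List ℕ, v ≠ [] ∧ z = sna_z m v) 1 2 1 one_pos one_pos
    · intro _
      exact ⟨_, [0], by simp, rfl⟩
    · rintro z j ⟨v, hv, rfl⟩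
      exact ⟨sna_one_le_norm_z m v hv, sna_norm_z_le m v⟩
    · rintro z j ⟨v, hv, rfl⟩ F hF ε hε
      obtain ⟨n0, hn0⟩ := Crest.Agent.S0166.exists_near_cof_of_sqrt_sums'
        (fun n => sna_e m (n :: v)) 1 (sna_norm_sum_siblings_le m v) F hF ε hε
      obtain ⟨w, hwF, hw⟩ := hn0 n0 le_rfl
      have hdiff : sna_z m (n0 :: v) - sna_z m v = sna_e m (n0 :: v) := by simp [sna_z]
      refine ⟨sna_z m (n0 :: v), ⟨n0 :: v, by simp, rfl⟩, ?_, w, hwF, ?_⟩
      · rw [hdiff]
        exact sna_one_le_norm_e m (n0 :: v) (by simp)
      · rw [hdiff]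
        exact hw
  refine ⟨?_, hno⟩
  show TopologicalSpace.SeparableSpace (modelSpace m) ∧ ¬ FiniteDimensional ℝ (modelSpace m)
  refine ⟨?_, Crest.Agent.S0166.not_finiteDimensional_of_not_auc' hno⟩
  · have h1 : TopologicalSpace.IsSeparable (Set.range (coordVector m)) :=
      (Set.countable_range _).isSeparable
    have h2 : TopologicalSpace.IsSeparable (modelSpace m : Set (lp (fun _ : PotentialTest m => ℝ) ⊤)) := by
      rw [modelSpace, Submodule.topologicalClosure_coe]
      exact h1.span.closure
    exact h2.separableSpace

end Crest.Agent.S0168
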